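import Vale.Agent.Lib.P064V.Pinned3

/-!
The improved count over a minimal set which is not low.
-/

open Finset

namespace Vale.Agent.Lib.P064V

open Vale.Agent.Lib.P064
open scoped Classical

variable {V α : Type} [Fintype V] [Fintype α] {H : SimpleGraph V} {F : SimpleGraph α} {n : ℕ}
  {q : ℝ}

/-- The count over a minimal set which is not low. -/
theorem sp_fiber2 (hG : GoodDensity n q H) (hn : 2 ≤ n) (hV : Fintype.card V ≤ n) (hq0 : 0 < q)
    (hqe : q ≤ Real.exp (-1)) (hL4 : 4 ≤ Real.log n) (hD : 1 ≤ (n : ℝ) * q)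
    (hD2 : (Real.exp 1 * ((n : ℝ) * q)) ^ 2 < n)
    {E I : Finset α} (hdisj : Disjoint I E) (hne : I.Nonempty)
    (hτ : 1 ≤ (n : ℝ) ^ I.card * (Real.exp 1 * q) ^ eT F (E ∪ I) I)
    (hmin : ∀ J ⊆ I, J.Nonempty → J ≠ I → Low n q F (E ∪ I) J)
    {S : Finset (α → V)} (hinj : ∀ φ ∈ S, Function.Injective φ)
    (hhom : ∀ φ ∈ S, ∀ u v, F.Adj u v → H.Adj (φ u) (φ v))
    {φ₀ : α → V} (hagree : ∀ φ ∈ S, ∀ x ∈ E, φ x = φ₀ x) :
    ((S.image (proj (E ∪ I))).card : ℝ) ≤
      spA ^ I.card * spK2 n q ^ (newE F E I).card *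
        ((n : ℝ) ^ I.card * q ^ (newE F E I).card) := by
  have hn2 : (2 : ℝ) ≤ n := by exact_mod_cast hn
  have hn1 : (1 : ℝ) ≤ n := by linarith
  have hn0 : (0 : ℝ) < n := by linarith
  have hn' : 1 ≤ n := by omega
  have hL0 : 0 ≤ Real.log n := by linarith
  have hQ2 := spQ_of_D2 hn hq0 hD hD2
  have hQ1 : 1 < - Real.log q := by linarith
  have hq1 : q ≤ 1 := hqe.trans (by rw [Real.exp_le_one_iff]; norm_num)
  have hK1 := one_le_spK2 hD hL0 hQ1
  have hA1 := spA_one_le
  have hE2 : 0 < Real.exp 2 := Real.exp_pos _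
  have hτ' := hτ
  rw [eT_union_self hdisj] at hτ'
  by_cases hS : S.Nonempty
  swap
  · rw [Finset.not_nonempty_iff_eq_empty] at hS
    rw [hS]
    simp only [Finset.image_empty, Finset.card_empty, Nat.cast_zero]
    have hK0 : 0 ≤ spK2 n q := by linarith
    have hA0 : 0 ≤ spA := by linarith
    positivity
  have ha1 : 1 ≤ I.card := Finset.card_pos.2 hne
  have heq1 : Real.exp 1 * q ≤ 1 := by
    have h1 : Real.exp 1 * q ≤ Real.exp 1 * Real.exp (-1) :=
      mul_le_mul_of_nonneg_left hqe (Real.exp_pos _).le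
    rw [← Real.exp_add] at h1
    simpa using h1
  have heq0 : 0 < Real.exp 1 * q := by positivity
  by_cases ha : I.card = 1
  · -- a single vertex
    obtain ⟨z, rfl⟩ := Finset.card_eq_one.1 ha
    have hzE : z ∉ E := Finset.disjoint_left.1 hdisj (Finset.mem_singleton_self z)
    rw [Finset.card_singleton] at hτ' ⊢
    rw [pow_one] at hτ' ⊢
    have hm2 : (newE F E {z}).card < 2 := by
      by_contra hcon
      push Not at hcon
      have h1 : (Real.exp 1 * q) ^ (newE F E {z}).card ≤ (Real.exp 1 * q) ^ 2 :=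
        pow_le_pow_of_le_one heq0.le heq1 hcon
      have h2 : (n : ℝ) * (Real.exp 1 * q) ^ 2 < 1 := by
        have h3 : (Real.exp 1 * ((n : ℝ) * q)) ^ 2 = n * ((n : ℝ) * (Real.exp 1 * q) ^ 2) := by ring
        rw [h3] at hD2
        have h4 : (n : ℝ) * ((n : ℝ) * (Real.exp 1 * q) ^ 2) < n * 1 := by linarith
        exact lt_of_mul_lt_mul_left h4 hn0.le
      have h5 : (n : ℝ) * (Real.exp 1 * q) ^ (newE F E {z}).card ≤
          (n : ℝ) * (Real.exp 1 * q) ^ 2 := mul_le_mul_of_nonneg_left h1 hn0.le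
      linarith
    by_cases hm0 : (newE F E {z}).card = 0
    · have h1 := peel_light (κ := 1) (A := Real.exp 2) hG hq0 hq1 hn' hV le_rfl le_rfl 1
        (fun d h1 h2 => absurd h2 (by omega)) hzE (by omega) S hinj hhom hagree
      rw [hm0] at h1 ⊢
      simp only [pow_zero, one_pow, mul_one, pow_one] at h1 ⊢
      refine h1.trans ?_
      have h2 : Real.exp 2 ≤ spA := by
        unfold spA
        linarith
      exact mul_le_mul_of_nonneg_right h2 hn0.le
    · have hm1 : (newE F E {z}).card = 1 := by omega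
      have hD0 : 0 < (n : ℝ) * q := by linarith
      have h1 := peel_light (κ := 1) (A := Real.exp 2 * (1 + Real.log n / ((n : ℝ) * q))) hG hq0 hq1
        hn' hV (by
          have : 0 ≤ Real.log n / ((n : ℝ) * q) := by positivity
          nlinarith) le_rfl 2
        (fun d h1 h2 => by
          have hd : d = 1 := by omega
          subst hd
          have h3 : (1 + Real.log n / ((n : ℝ) * q)) * ((n : ℝ) * q) = (n : ℝ) * q + Real.log n := by
            field_simp
          have h4 : (1 : ℝ) ≤ Real.exp 2 := Real.one_le_exp (by norm_num)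
          simp only [Nat.cast_one, one_mul, pow_one]
          calc Real.log n ≤ 1 * ((n : ℝ) * q + Real.log n) := by linarith
            _ ≤ Real.exp 2 * ((n : ℝ) * q + Real.log n) :=
                mul_le_mul_of_nonneg_right h4 (by linarith)
            _ = _ := by rw [← h3]; ring) hzE (by omega) S hinj hhom hagree
      rw [hm1] at h1 ⊢
      simp only [one_pow, mul_one, pow_one] at h1 ⊢
      refine h1.trans ?_
      have h2 := spK2_pendant hD hL0 hQ1
      have h3 : 0 ≤ (n : ℝ) * q := by linarith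
      calc _ ≤ spA * spK2 n q * ((n : ℝ) * q) := mul_le_mul_of_nonneg_right h2 h3
        _ = _ := rfl
  -- at least two vertices
  have ha2 : 2 ≤ I.card := by omega
  have hconn := conn_of_min hn' hq0 hqe hdisj hτ hmin
  have hdeg : ∀ w ∈ I, 2 ≤ dW F (E ∪ I) w := by
    intro w hw
    have hsub : ({w} : Finset α) ⊆ I := Finset.singleton_subset_iff.2 hw
    have hne' : ({w} : Finset α) ≠ I := by
      intro h
      rw [← h, Finset.card_singleton] at ha
      exact ha rfl
    have := low_card_lt hq0 hqe hD (hmin {w} hsub (Finset.singleton_nonempty w) hne')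
    rw [Finset.card_singleton] at this
    exact this
  have hsum := sum_dW_add_core (F := F) E I hdisj
  have h2a : 2 * I.card ≤ ∑ w ∈ I, dW F (E ∪ I) w := by
    calc 2 * I.card = ∑ _w ∈ I, 2 := by simp [mul_comm]
      _ ≤ _ := Finset.sum_le_sum hdeg
  have ham : I.card ≤ (newE F E I).card := by omega
  obtain ⟨x, hm⟩ : ∃ x, (newE F E I).card = I.card + x := ⟨_, (Nat.add_sub_cancel' ham).symm⟩
  have hb1 := core_card_le hdisj hne hconn
  have hb : (core F E I).card ≤ x + 1 := by omega
  have hm1 : 1 ≤ (newE F E I).card := by omega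
  have hxa : (x : ℝ) * (- Real.log q - 1) ≤ I.card * (spG n q + 1) :=
    tau_excess hn' hq0 (by rw [← hm]; exact hτ')
  have hρexp : Real.exp (-((newE F E I).card : ℝ)) ≤ (n : ℝ) ^ I.card * q ^ (newE F E I).card :=
    tau_exp hq0 hτ'
  have hρ0 : 0 ≤ (n : ℝ) ^ I.card * q ^ (newE F E I).card := by positivity
  have hpin := fun (x' : α) (hx' : x' ∈ I) (y : V) =>
    sp_pinned2 hG hn hV hq0 hqe hL0 hD hQ2 hdisj hconn hmin hdeg hm hinj hhom hagree hx' y
  by_cases hx0 : x = 0
  · subst hx0
    have hb0 : (core F E I).card = 0 := by omega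
    have hcore : core F E I = ∅ := Finset.card_eq_zero.1 hb0
    have hdeg2 : ∀ w ∈ I, dW F (E ∪ I) w = 2 := by
      intro w hw
      by_contra hcon
      have h3 : 2 < dW F (E ∪ I) w := by
        have := hdeg w hw
        omega
      have h4 : ∑ _w ∈ I, 2 < ∑ w ∈ I, dW F (E ∪ I) w :=
        Finset.sum_lt_sum hdeg ⟨w, hw, h3⟩
      simp only [Finset.sum_const, smul_eq_mul] at h4
      omega
    by_cases hsmall : ((n : ℝ) * q) ^ (2 * I.card) * q < 1
    · obtain ⟨t, ht1, hdich, hcount⟩ := cover_pinned hG hq0 hq1 hn' hne hdisj hm1 S hS hinj hhom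
        hagree (P := 4) (by norm_num) (by
          intro x' hx' y
          by_cases hS' : (S.filter (fun φ => φ x' = y)).Nonempty
          · obtain ⟨φ₁, hφ₁⟩ := hS'
            have hφ₁' := Finset.mem_filter.1 hφ₁
            refine cycle_pinned hG hn' hq0 hqe hD hdisj hx' hconn hmin hdeg2 hcore (by simpa using hm)
              hsmall (fun φ hφ => hinj φ (Finset.mem_filter.1 hφ).1)
              (fun φ hφ => hhom φ (Finset.mem_filter.1 hφ).1) (φ₀ := φ₁) ?_
            intro φ hφ y' hy'
            have hφ' := Finset.mem_filter.1 hφ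
            rcases Finset.mem_insert.1 hy' with rfl | hy''
            · rw [hφ'.2, hφ₁'.2]
            · rw [hagree φ hφ'.1 y' hy'', hagree φ₁ hφ₁'.1 y' hy'']
          · rw [Finset.not_nonempty_iff_eq_empty] at hS'
            rw [hS']
            simp)
      have ht : (t : ℝ) ≤ Real.exp 2 * ((n : ℝ) ^ I.card * q ^ (newE F E I).card) := by
        rcases hdich with h | h
        · exfalso
          rw [hb0] at h
          have h5 : (1 : ℝ) ≤ t := by exact_mod_cast ht1
          simp only [Nat.cast_zero, zero_mul] at h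
          linarith
        · exact h
      refine hcount.trans ?_
      have h6 := sp_final_C2 hD hL0 hQ1 ha1 hρ0 ht le_rfl (by norm_num)
      simpa [hm] using h6
    · push Not at hsmall
      have hP : Real.exp ((((core F E I).card : ℝ) + 1) * (Real.log n / (1 + spG n q) + 2) +
          (((0 : ℕ) : ℝ) + 1) * (10 + 12 * Real.log (Real.log n + 2))) ≤
            Real.exp (I.card * spKap2 n q) := by
        rw [hb0]
        exact sp_P_cycle2 hq0 hD hL0 hQ1 hsmall
      obtain ⟨t, ht1, hdich, hcount⟩ := cover_pinned hG hq0 hq1 hn' hne hdisj hm1 S hS hinj hhom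
        hagree (P := Real.exp (I.card * spKap2 n q)) (Real.exp_pos _).le (by
          intro x' hx' y
          exact (hpin x' hx' y).trans hP)
      have ht : (t : ℝ) ≤ Real.exp 2 * ((n : ℝ) ^ I.card * q ^ (newE F E I).card) := by
        rcases hdich with h | h
        · exfalso
          rw [hb0] at h
          have h5 : (1 : ℝ) ≤ t := by exact_mod_cast ht1
          simp only [Nat.cast_zero, zero_mul] at h
          linarith
        · exact h
      refine hcount.trans ?_
      exact sp_final_A2 hD hL0 hQ1 ha1 ham hρ0 ht le_rfl (Real.exp_pos _).le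
  · have hx1 : 1 ≤ x := Nat.one_le_iff_ne_zero.2 hx0
    have hP := sp_P_large2 hD hL0 hQ1 (a := I.card) hx1 hb hxa
    obtain ⟨t, ht1, hdich, hcount⟩ := cover_pinned hG hq0 hq1 hn' hne hdisj hm1 S hS hinj hhom
      hagree (P := Real.exp (I.card * spKap2 n q)) (Real.exp_pos _).le (by
        intro x' hx' y
        exact (hpin x' hx' y).trans hP)
    refine hcount.trans ?_
    rcases hdich with h | h
    · rw [hm] at hρexp hρ0 ⊢
      exact sp_final_B2 hD hL4 hQ2 ha1 hx1 hb hρ0 hxa h le_rfl (Real.exp_pos _).le hρexp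
    · exact sp_final_A2 hD hL0 hQ1 ha1 ham hρ0 h le_rfl (Real.exp_pos _).le



end Vale.Agent.Lib.P064V
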