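import Vale.Agent.Lib.P064V.Num2

/-!
The numerics of the improved loss.
-/

open Finset

namespace Vale.Agent.Lib.P064V

open Vale.Agent.Lib.P064
open scoped Classical

variable {n : ℕ}

/-- The elementary numerics: `spK2` in terms of `n p`. -/
lemma spK2_le {q p : ℝ} (hL : 4 ≤ Real.log n) (hp1 : 1 ≤ (n : ℝ) * p) (hpq : 2 * p ≤ q)
    (hq4 : q ≤ 4 * p) (hQ : Real.log n / 2 ≤ - Real.log q) :
    spK2 n q ≤ Real.exp 25 * (1 + Real.log n / ((n : ℝ) * p)) *
      Real.exp (624 * ((1 + Real.log ((n : ℝ) * p)) * (1 + Real.log (Real.log n + 2))) /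
        Real.log n) := by
  have hn0 : (0 : ℝ) < n := by
    rcases Nat.eq_zero_or_pos n with h | h
    · subst h
      norm_num at hL
    · exact_mod_cast h
  have hLpos : 0 < Real.log n := by linarith
  have hp0 : 0 < p := by
    by_contra hcon
    have : (n : ℝ) * p ≤ 0 := mul_nonpos_of_nonneg_of_nonpos hn0.le (not_lt.1 hcon)
    linarith
  have hP1 : 1 ≤ (n : ℝ) * p := hp1
  have hPpos : 0 < (n : ℝ) * p := by linarith
  have hlogP : 0 ≤ Real.log ((n : ℝ) * p) := Real.log_nonneg hP1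
  have hDle : (n : ℝ) * q ≤ 4 * ((n : ℝ) * p) := by nlinarith
  have hDge : (n : ℝ) * p ≤ (n : ℝ) * q := by nlinarith
  have hD1 : 1 ≤ (n : ℝ) * q := le_trans hP1 hDge
  have hDpos : 0 < (n : ℝ) * q := by linarith
  have hg0 : 0 ≤ spG n q := Real.log_nonneg hD1
  have hlog4 : Real.log 4 ≤ 2 := by
    have h1 : Real.log 4 = 2 * Real.log 2 := by
      rw [show (4 : ℝ) = 2 ^ 2 by norm_num, Real.log_pow]; norm_num
    have h2 := Real.log_two_lt_d9
    rw [h1]; linarith
  have hgle : spG n q + 1 ≤ 3 * (1 + Real.log ((n : ℝ) * p)) := by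
    have h1 : spG n q ≤ Real.log 4 + Real.log ((n : ℝ) * p) := by
      have h2 := Real.log_le_log hDpos hDle
      rw [Real.log_mul (by norm_num) hPpos.ne'] at h2
      exact h2
    linarith
  set L := Real.log (n : ℝ) with hLdef
  set g := spG n q with hgdef
  set l := 1 + Real.log ((n : ℝ) * p) with hldef
  have hl1 : 1 ≤ l := by rw [hldef]; linarith
  set t := Real.log (L + 2) with htdef
  have ht0 : 0 ≤ t := Real.log_nonneg (by linarith)
  have hQ1 : L / 4 ≤ - Real.log q - 1 := by linarith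
  have hQ1pos : 0 < - Real.log q - 1 := by linarith
  have hg1 : 0 < 1 + g := by linarith
  -- the exponent
  have hnum : (g + 1) * spM n q = 3 * L + (g + 1) * (24 * t + 26) := by
    have hM : spM n q = 3 * L / (1 + g) + 24 * t + 26 := rfl
    have h1 : (1 + g) * (3 * L / (1 + g)) = 3 * L := mul_div_cancel₀ _ hg1.ne'
    rw [hM]
    calc (g + 1) * (3 * L / (1 + g) + 24 * t + 26)
        = (1 + g) * (3 * L / (1 + g)) + (g + 1) * (24 * t + 26) := by ring
      _ = _ := by rw [h1]
  have hnum0 : 0 ≤ (g + 1) * spM n q := by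
    rw [hnum]
    positivity
  have hkap : spKap2 n q ≤ 12 + 312 * (l * (1 + t)) / L := by
    have h1 : spKap2 n q = (g + 1) * spM n q / (- Real.log q - 1) := rfl
    have h2 : (g + 1) * spM n q / (- Real.log q - 1) ≤ (g + 1) * spM n q / (L / 4) :=
      div_le_div_of_nonneg_left hnum0 (by positivity) hQ1
    rw [h1]
    refine h2.trans ?_
    have h4 : 12 + 312 * (l * (1 + t)) / L = (12 * L + 312 * (l * (1 + t))) / L := by
      field_simp
    rw [h4, div_le_div_iff₀ (by positivity) hLpos, hnum]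
    have h5 : (g + 1) * (24 * t + 26) ≤ (3 * l) * (26 * (1 + t)) :=
      mul_le_mul hgle (by linarith) (by positivity) (by positivity)
    nlinarith
  have hkap2 : 2 * spKap2 n q ≤ 24 + 624 * (l * (1 + t)) / L := by
    have h3 : 624 * (l * (1 + t)) / L = 2 * (312 * (l * (1 + t)) / L) := by ring
    rw [h3]
    linarith
  have hfrac : L / ((n : ℝ) * q) ≤ L / ((n : ℝ) * p) :=
    div_le_div_of_nonneg_left hLpos.le hPpos hDge
  have h1L : 0 ≤ 1 + L / ((n : ℝ) * q) := by positivity
  have h1L' : 0 ≤ 1 + L / ((n : ℝ) * p) := by positivity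
  have hexp : Real.exp 1 * Real.exp (2 * spKap2 n q) ≤
      Real.exp 25 * Real.exp (624 * (l * (1 + t)) / L) := by
    rw [← Real.exp_add, ← Real.exp_add]
    apply Real.exp_le_exp.2
    linarith
  unfold spK2
  calc Real.exp 1 * (1 + L / ((n : ℝ) * q)) * Real.exp (2 * spKap2 n q)
      = (1 + L / ((n : ℝ) * q)) * (Real.exp 1 * Real.exp (2 * spKap2 n q)) := by ring
    _ ≤ (1 + L / ((n : ℝ) * p)) * (Real.exp 25 * Real.exp (624 * (l * (1 + t)) / L)) :=
        mul_le_mul (by linarith) hexp (by positivity) h1L'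
    _ = Real.exp 25 * (1 + L / ((n : ℝ) * p)) * Real.exp (624 * (l * (1 + t)) / L) := by ring

end Vale.Agent.Lib.P064V
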