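import Vale.Agent.Lib.P064V.Main2
import Vale.Agent.Lib.P064V.FinalNum2
import Vale.Agent.Lib.P064S.Final

/-!
The thresholds on the sparse side, improved.
-/

open Finset

namespace Vale.Agent.Lib.P064V

open Vale.Agent.Lib.P064
open scoped Classical

variable {V : Type} [Fintype V] {H : SimpleGraph V} {n : ℕ}

/-- The bound for the tilde threshold and the threshold. -/
theorem sparse_thresholds2 :
    ∃ C : ℝ, 0 < C ∧ ∀ (n : ℕ) (V : Type) [Fintype V] (H : SimpleGraph V), 2 ≤ n →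
      Fintype.card V ≤ n → H ≠ ⊥ → 1 ≤ (n : ℝ) * pE n H →
      1000 * ((n : ℝ) * pE n H) ^ 2 ≤ n →
      pTilde n H ≤ C * pE n H * (1 + Real.log n / ((n : ℝ) * pE n H)) *
          Real.exp (C * ((1 + Real.log ((n : ℝ) * pE n H)) *
            (1 + Real.log (Real.log n + 2))) / Real.log n) ∧
      pc n H ≤ C * pE n H * Real.log n * (1 + Real.log n / ((n : ℝ) * pE n H)) *
          Real.exp (C * ((1 + Real.log ((n : ℝ) * pE n H)) *
            (1 + Real.log (Real.log n + 2))) / Real.log n) := by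
  have hspA : 0 < spA := lt_of_lt_of_le one_pos spA_one_le
  obtain ⟨A0, hA0⟩ : ∃ A0 : ℝ, A0 = (spA * Real.exp 1) ^ 2 * Real.exp 25 * 4 := ⟨_, rfl⟩
  have hA0pos : 0 < A0 := by
    rw [hA0]
    positivity
  refine ⟨512 * A0 + 624, by positivity, ?_⟩
  intro n V _ H hn hV hH hD1 hD2
  have hE0 : 0 < pE n H := pE_pos hn hV hH
  obtain ⟨ι⟩ : Nonempty (V ↪ Fin n) :=
    Function.Embedding.nonempty_of_card_le (by simpa using hV)
  have hlt : pE n H < 2 * pE n H := by linarith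
  obtain ⟨p, ⟨h0, h1, hp⟩, hp2⟩ := exists_lt_of_csInf_lt (pE_set_nonempty (H := H) ι) hlt
  have hpE : pE n H ≤ p := csInf_le ⟨0, fun _ hy => hy.1⟩ ⟨h0, h1, hp⟩
  have hG : GoodDensity n (2 * p) H := good_of_subgraphs h0 h1 hp
  obtain ⟨q, hqdef⟩ : ∃ q, q = 2 * p := ⟨_, rfl⟩
  rw [← hqdef] at hG
  obtain ⟨P, hPdef⟩ : ∃ P, P = pE n H := ⟨_, rfl⟩
  rw [← hPdef] at hD1 hD2 hE0 hp2 hpE ⊢
  have hn2 : (2 : ℝ) ≤ n := by exact_mod_cast hn
  have hn0 : (0 : ℝ) < n := by linarith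
  have hq4 : q ≤ 4 * P := by linarith
  have hq2 : 2 * P ≤ q := by linarith
  have hq0 : 0 < q := by linarith
  have hD0 : 0 < (n : ℝ) * P := by positivity
  have h1000 : (1000 : ℝ) ≤ n := by nlinarith
  have hL : 4 ≤ Real.log n := by
    rw [Real.le_log_iff_exp_le hn0]
    have he := Real.exp_one_lt_d9
    have h4 : Real.exp 4 = Real.exp 1 ^ 4 := by
      rw [← Real.exp_nat_mul]
      norm_num
    rw [h4]
    have h5 : Real.exp 1 ^ 4 ≤ (3 : ℝ) ^ 4 :=
      pow_le_pow_left₀ (Real.exp_pos _).le (by linarith) 4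
    norm_num at h5
    linarith
  have hLpos : 0 < Real.log n := by linarith
  have hqD : 1 ≤ (n : ℝ) * q := by nlinarith
  have hqD4 : (n : ℝ) * q ≤ 4 * ((n : ℝ) * P) := by nlinarith
  have hD2q : (Real.exp 1 * ((n : ℝ) * q)) ^ 2 < n := by
    have he := Real.exp_one_lt_d9
    have he0 := Real.exp_pos 1
    have h3 : Real.exp 1 * ((n : ℝ) * q) ≤ 3 * (4 * ((n : ℝ) * P)) :=
      mul_le_mul (by linarith) hqD4 (by positivity) (by norm_num)
    have h4 : (Real.exp 1 * ((n : ℝ) * q)) ^ 2 ≤ (3 * (4 * ((n : ℝ) * P))) ^ 2 :=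
      pow_le_pow_left₀ (by positivity) h3 2
    nlinarith
  have hqe : q ≤ Real.exp (-1) := spq_of_D2 hn hq0 hD2q
  have hQ : Real.log n / 2 ≤ - Real.log q := spQ_of_D2 hn hq0 hqD hD2q
  have hEmb := embBound_sparse2 hG hn hV hq0 hqe hL hqD hD2q
  have hK := spK2_le (n := n) (q := q) (p := P) hL hD1 hq2 hq4 hQ
  obtain ⟨X, hXdef⟩ : ∃ X, X = (1 + Real.log ((n : ℝ) * P)) * (1 + Real.log (Real.log n + 2)) :=
    ⟨_, rfl⟩
  rw [← hXdef] at hK ⊢
  have hX0 : 0 ≤ X := by
    rw [hXdef]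
    have h1 : 0 ≤ Real.log ((n : ℝ) * P) := Real.log_nonneg hD1
    have h2 : 0 ≤ Real.log (Real.log n + 2) := Real.log_nonneg (by linarith)
    positivity
  obtain ⟨B, hBdef⟩ : ∃ B, B = 1 + Real.log n / ((n : ℝ) * P) := ⟨_, rfl⟩
  rw [← hBdef] at hK ⊢
  have hB0 : 0 < B := by
    rw [hBdef]
    have : 0 ≤ Real.log n / ((n : ℝ) * P) := div_nonneg hLpos.le hD0.le
    linarith
  have hKpos : 0 < spK2 n q := by
    unfold spK2
    have h1 : 0 ≤ Real.log n / ((n : ℝ) * q) := div_nonneg hLpos.le (by positivity)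
    have h2 : 0 < 1 + Real.log n / ((n : ℝ) * q) := by linarith
    positivity
  obtain ⟨Θ, hΘdef⟩ : ∃ Θ, Θ = (spA * Real.exp 1) ^ 2 * spK2 n q * q := ⟨_, rfl⟩
  rw [← hΘdef] at hEmb
  have hΘ0 : 0 < Θ := by
    rw [hΘdef]
    positivity
  obtain ⟨C, hCdef⟩ : ∃ C, C = 512 * A0 + 624 := ⟨_, rfl⟩
  rw [← hCdef]
  have hC0 : 0 < C := by
    rw [hCdef]
    positivity
  have hexp : Real.exp (624 * X / Real.log n) ≤ Real.exp (C * X / Real.log n) := by
    apply Real.exp_le_exp.2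
    apply div_le_div_of_nonneg_right _ hLpos.le
    apply mul_le_mul_of_nonneg_right _ hX0
    rw [hCdef]
    linarith
  obtain ⟨Ex, hExdef⟩ : ∃ Ex, Ex = Real.exp (C * X / Real.log n) := ⟨_, rfl⟩
  rw [← hExdef] at hexp ⊢
  have hEx0 : 0 < Ex := by
    rw [hExdef]
    exact Real.exp_pos _
  have hΘle : Θ ≤ A0 * P * B * Ex := by
    have h1 : spK2 n q ≤ Real.exp 25 * B * Ex :=
      hK.trans (mul_le_mul_of_nonneg_left hexp (by positivity))
    have h2 : spK2 n q * q ≤ (Real.exp 25 * B * Ex) * (4 * P) :=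
      mul_le_mul h1 hq4 hq0.le (by positivity)
    have h3 : (spA * Real.exp 1) ^ 2 * (spK2 n q * q) ≤
        (spA * Real.exp 1) ^ 2 * ((Real.exp 25 * B * Ex) * (4 * P)) :=
      mul_le_mul_of_nonneg_left h2 (by positivity)
    rw [hΘdef, hA0]
    calc (spA * Real.exp 1) ^ 2 * spK2 n q * q = (spA * Real.exp 1) ^ 2 * (spK2 n q * q) := by ring
      _ ≤ _ := h3
      _ = _ := by ring
  have hbase : 0 ≤ P * B * Ex := by positivity
  have hA0C : A0 ≤ C := by
    rw [hCdef]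
    linarith
  have h512 : 512 * A0 ≤ C := by
    rw [hCdef]
    linarith
  constructor
  · calc pTilde n H ≤ Θ := pTilde_le_of_embBound hV hΘ0 hEmb
      _ ≤ A0 * P * B * Ex := hΘle
      _ = A0 * (P * B * Ex) := by ring
      _ ≤ C * (P * B * Ex) := mul_le_mul_of_nonneg_right hA0C hbase
      _ = _ := by ring
  · calc pc n H ≤ 512 * Real.log n * Θ := pc_le_of_embBound hn hV hH hΘ0 hEmb
      _ ≤ 512 * Real.log n * (A0 * P * B * Ex) :=
          mul_le_mul_of_nonneg_left hΘle (by positivity)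
      _ = (512 * A0) * (P * Real.log n * B * Ex) := by ring
      _ ≤ C * (P * Real.log n * B * Ex) :=
          mul_le_mul_of_nonneg_right h512 (by positivity)
      _ = _ := by ring



/-- The bound and its consequence in the window. -/
theorem hub_thresholds :
    ∃ C : ℝ, 0 < C ∧ ∀ (n : ℕ) (V : Type) [Fintype V] (H : SimpleGraph V), 2 ≤ n →
      Fintype.card V ≤ n → H ≠ ⊥ → 1 ≤ (n : ℝ) * pE n H →
      1000 * ((n : ℝ) * pE n H) ^ 2 ≤ n →
      (pTilde n H ≤ C * pE n H * (1 + Real.log n / ((n : ℝ) * pE n H)) *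
          Real.exp (C * ((1 + Real.log ((n : ℝ) * pE n H)) *
            (1 + Real.log (Real.log n + 2))) / Real.log n) ∧
      pc n H ≤ C * pE n H * Real.log n * (1 + Real.log n / ((n : ℝ) * pE n H)) *
          Real.exp (C * ((1 + Real.log ((n : ℝ) * pE n H)) *
            (1 + Real.log (Real.log n + 2))) / Real.log n)) ∧
      (Real.log n ≤ (n : ℝ) * pE n H →
        (1 + Real.log ((n : ℝ) * pE n H)) * (1 + Real.log (Real.log n + 2)) ≤ Real.log n →
        pTilde n H ≤ C * pE n H ∧ pc n H ≤ C * pE n H * Real.log n) := by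
  obtain ⟨C₀, hC₀, hmain⟩ := sparse_thresholds2
  have hE1 : 1 ≤ Real.exp C₀ := Real.one_le_exp hC₀.le
  refine ⟨2 * C₀ * Real.exp C₀, by positivity, ?_⟩
  intro n V _ H hn hV hH hD1 hD2
  obtain ⟨h1, h2⟩ := hmain n V H hn hV hH hD1 hD2
  have hn2 : (2 : ℝ) ≤ n := by exact_mod_cast hn
  have hL : 0 < Real.log n := Real.log_pos (by linarith)
  have hP0 : 0 < pE n H := pE_pos hn hV hH
  have hn0 : (0 : ℝ) < n := by linarith
  have hD0 : 0 < (n : ℝ) * pE n H := by positivity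
  obtain ⟨X, hXdef⟩ : ∃ X, X = (1 + Real.log ((n : ℝ) * pE n H)) *
      (1 + Real.log (Real.log n + 2)) := ⟨_, rfl⟩
  rw [← hXdef] at h1 h2 ⊢
  have hX0 : 0 ≤ X := by
    rw [hXdef]
    have h3 : 0 ≤ Real.log ((n : ℝ) * pE n H) := Real.log_nonneg hD1
    have h4 : 0 ≤ Real.log (Real.log n + 2) := Real.log_nonneg (by linarith)
    positivity
  obtain ⟨B, hBdef⟩ : ∃ B, B = 1 + Real.log n / ((n : ℝ) * pE n H) := ⟨_, rfl⟩
  rw [← hBdef] at h1 h2 ⊢
  have hB0 : 0 ≤ B := by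
    rw [hBdef]
    have : 0 ≤ Real.log n / ((n : ℝ) * pE n H) := div_nonneg hL.le hD0.le
    linarith
  have hCC : C₀ ≤ 2 * C₀ * Real.exp C₀ := by nlinarith
  have hex : Real.exp (C₀ * X / Real.log n) ≤ Real.exp (2 * C₀ * Real.exp C₀ * X / Real.log n) := by
    apply Real.exp_le_exp.2
    apply div_le_div_of_nonneg_right _ hL.le
    exact mul_le_mul_of_nonneg_right hCC hX0
  refine ⟨⟨h1.trans ?_, h2.trans ?_⟩, ?_⟩
  · apply mul_le_mul _ hex (Real.exp_pos _).le (by positivity)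
    apply mul_le_mul_of_nonneg_right _ hB0
    exact mul_le_mul_of_nonneg_right hCC hP0.le
  · apply mul_le_mul _ hex (Real.exp_pos _).le (by positivity)
    apply mul_le_mul_of_nonneg_right _ hB0
    apply mul_le_mul_of_nonneg_right _ hL.le
    exact mul_le_mul_of_nonneg_right hCC hP0.le
  · intro hLD hXL
    have hB2 : B ≤ 2 := by
      rw [hBdef]
      have : Real.log n / ((n : ℝ) * pE n H) ≤ 1 := (div_le_one hD0).2 hLD
      linarith
    have hex2 : Real.exp (C₀ * X / Real.log n) ≤ Real.exp C₀ := by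
      apply Real.exp_le_exp.2
      rw [div_le_iff₀ hL]
      exact mul_le_mul_of_nonneg_left hXL hC₀.le
    have hEx : B * Real.exp (C₀ * X / Real.log n) ≤ 2 * Real.exp C₀ :=
      mul_le_mul hB2 hex2 (Real.exp_pos _).le (by norm_num)
    constructor
    · calc pTilde n H ≤ C₀ * pE n H * B * Real.exp (C₀ * X / Real.log n) := h1
        _ = C₀ * pE n H * (B * Real.exp (C₀ * X / Real.log n)) := by ring
        _ ≤ C₀ * pE n H * (2 * Real.exp C₀) := mul_le_mul_of_nonneg_left hEx (by positivity)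
        _ = _ := by ring
    · calc pc n H ≤ C₀ * pE n H * Real.log n * B * Real.exp (C₀ * X / Real.log n) := h2
        _ = C₀ * pE n H * Real.log n * (B * Real.exp (C₀ * X / Real.log n)) := by ring
        _ ≤ C₀ * pE n H * Real.log n * (2 * Real.exp C₀) :=
            mul_le_mul_of_nonneg_left hEx (by positivity)
        _ = _ := by ring

end Vale.Agent.Lib.P064V
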