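import Vale.Agent.Lib.P064S.HDegree

/-!
The gain step: inserting an embedding which deviates right after a vertex of degree two lowers
the potential by the factor `n e q`.
-/

open Finset

namespace Vale.Agent.Lib.P064V

open Vale.Agent.Lib.P064 Vale.Agent.Lib.P064S
open scoped Classical

variable {V α : Type} [Fintype V] [Fintype α] {F : SimpleGraph α} {H : SimpleGraph V} {n : ℕ}
  {q : ℝ} {W J : Finset α} {S : Finset (α → V)} {φ₁ : α → V}

/-- The potential of a subfamily. -/
noncomputable def pot (n : ℕ) (q : ℝ) (F : SimpleGraph α) (W J : Finset α) (φ₁ : α → V)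
    (T : Finset (α → V)) : ℝ :=
  (n : ℝ) ^ (VV F W J φ₁ T).card * (Real.exp 1 * q) ^ (UU F W J T).card

/-- The new vertices of an insertion. -/
noncomputable def newJ (F : SimpleGraph α) (W J : Finset α) (φ₁ : α → V)
    (T : Finset (α → V)) (φ : α → V) : Finset α :=
  J.filter (fun v => φ v ∉ VV F W J φ₁ T)

lemma newJ_subset (T : Finset (α → V)) (φ : α → V) : newJ F W J φ₁ T φ ⊆ J :=
  Finset.filter_subset _ _

/-- The two counts of an insertion. -/
lemma insert_facts (hP : Pin n q F H W J S φ₁) {T : Finset (α → V)} (hT : T ⊆ S) {φ : α → V}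
    (hφS : φ ∈ S) :
    (VV F W J φ₁ (insert φ T)).card = (VV F W J φ₁ T).card + (newJ F W J φ₁ T φ).card ∧
    Disjoint (UU F W J T) ((tI F W (newJ F W J φ₁ T φ)).image (Sym2.map φ)) ∧
    UU F W J T ∪ (tI F W (newJ F W J φ₁ T φ)).image (Sym2.map φ) ⊆ UU F W J (insert φ T) := by
  have hinj := hP.inj φ hφS
  set J' := newJ F W J φ₁ T φ with hJ'
  have hJ'J : J' ⊆ J := newJ_subset T φ
  have hV : VV F W J φ₁ (insert φ T) = VV F W J φ₁ T ∪ J'.image φ := by
    ext z
    simp only [VV, ZZ_insert, Finset.mem_union, Finset.mem_image, hJ', newJ, Finset.mem_filter]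
    constructor
    · rintro (h | ⟨a, ha, rfl⟩ | h)
      · exact Or.inl (Or.inl h)
      · by_cases h2 : φ a ∈ roots F W J φ₁ ∪ ZZ J T
        · exact Or.inl (by simpa [Finset.mem_union] using h2)
        · exact Or.inr ⟨a, ⟨ha, by simpa [VV] using h2⟩, rfl⟩
      · exact Or.inl (Or.inr h)
    · rintro (h | ⟨a, ⟨ha, _⟩, rfl⟩)
      · rcases h with h | h
        · exact Or.inl h
        · exact Or.inr (Or.inr h)
      · exact Or.inr (Or.inl ⟨a, ha, rfl⟩)
  have hVdisj : Disjoint (VV F W J φ₁ T) (J'.image φ) := by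
    rw [Finset.disjoint_left]
    intro z hz hz2
    obtain ⟨a, ha, rfl⟩ := Finset.mem_image.1 hz2
    exact (Finset.mem_filter.1 ha).2 hz
  refine ⟨?_, ?_, ?_⟩
  · rw [hV, Finset.card_union_of_disjoint hVdisj, Finset.card_image_of_injective _ hinj]
  · rw [Finset.disjoint_left]
    intro e he he2
    obtain ⟨e', he', rfl⟩ := Finset.mem_image.1 he2
    induction e' using Sym2.ind with
    | _ u v =>
      obtain ⟨h1, h2, h3, h4⟩ := (mem_tI_pair (hJ'J.trans hP.hJW)).1 he'
      rw [Sym2.map_mk] at he
      rcases h4 with h | h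
      · exact (Finset.mem_filter.1 h).2 (mem_VV_of_mem_UU hP hT he (by simp))
      · exact (Finset.mem_filter.1 h).2 (mem_VV_of_mem_UU hP hT he (by simp))
  · rw [UU_insert]
    intro e he
    rcases Finset.mem_union.1 he with h | h
    · exact Finset.mem_union_right _ h
    · obtain ⟨e', he', rfl⟩ := Finset.mem_image.1 h
      refine Finset.mem_union_left _ (Finset.mem_image_of_mem _ ?_)
      induction e' using Sym2.ind with
      | _ u v =>
        obtain ⟨h1, h2, h3, h4⟩ := (mem_tI_pair (hJ'J.trans hP.hJW)).1 he'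
        refine (mem_tI_pair hP.hJW).2 ⟨h1, h2, h3, ?_⟩
        rcases h4 with h | h
        · exact Or.inl (hJ'J h)
        · exact Or.inr (hJ'J h)

/-- Inserting never increases the potential. -/
theorem pot_step (hP : Pin n q F H W J S φ₁) {T : Finset (α → V)} (hT : T ⊆ S) {φ : α → V}
    (hφS : φ ∈ S) : pot n q F W J φ₁ (insert φ T) ≤ pot n q F W J φ₁ T := by
  have hn1 : (1 : ℝ) ≤ n := by exact_mod_cast hP.n1
  have hn0 : (0 : ℝ) < n := by linarith
  have heq0 : 0 < Real.exp 1 * q := mul_pos (Real.exp_pos _) hP.q0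
  obtain ⟨hVc, hUd, hUs⟩ := insert_facts hP hT hφS
  set J' := newJ F W J φ₁ T φ with hJ'
  have hJ'J : J' ⊆ J := newJ_subset T φ
  have hUcard : (UU F W J T).card + (tI F W J').card ≤ (UU F W J (insert φ T)).card := by
    have h1 := Finset.card_le_card hUs
    rw [Finset.card_union_of_disjoint hUd,
      Finset.card_image_of_injective _ (Sym2.map.injective (hP.inj φ hφS))] at h1
    exact h1
  have hstep : (n : ℝ) ^ J'.card * (Real.exp 1 * q) ^ (tI F W J').card ≤ 1 := by
    by_cases hne : J'.Nonempty
    · exact (hP.low J' hJ'J hne).le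
    · rw [Finset.not_nonempty_iff_eq_empty] at hne
      rw [hne, tI_empty]
      simp
  have hpow : (Real.exp 1 * q) ^ (UU F W J (insert φ T)).card ≤
      (Real.exp 1 * q) ^ ((UU F W J T).card + (tI F W J').card) :=
    pow_le_pow_of_le_one heq0.le hP.qe hUcard
  unfold pot
  calc (n : ℝ) ^ (VV F W J φ₁ (insert φ T)).card *
        (Real.exp 1 * q) ^ (UU F W J (insert φ T)).card
      ≤ (n : ℝ) ^ ((VV F W J φ₁ T).card + J'.card) *
        (Real.exp 1 * q) ^ ((UU F W J T).card + (tI F W J').card) := by
        rw [hVc]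
        exact mul_le_mul_of_nonneg_left hpow (by positivity)
    _ = ((n : ℝ) ^ (VV F W J φ₁ T).card * (Real.exp 1 * q) ^ (UU F W J T).card) *
        ((n : ℝ) ^ J'.card * (Real.exp 1 * q) ^ (tI F W J').card) := by
        rw [pow_add, pow_add]
        ring
    _ ≤ ((n : ℝ) ^ (VV F W J φ₁ T).card * (Real.exp 1 * q) ^ (UU F W J T).card) * 1 :=
        mul_le_mul_of_nonneg_left hstep (by positivity)
    _ = _ := mul_one _

/-- The gain step. -/
theorem pot_gain (hP : Pin n q F H W J S φ₁) {T : Finset (α → V)} (hT : T ⊆ S) {φ : α → V}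
    (hφS : φ ∈ S) {u p v : α} (hu : u ∈ J) (hnb : nbW F W u = {p, v}) (hpv : p ≠ v)
    (hag : ∀ σ ∈ T, σ u = φ u ∧ σ p = φ p ∧ σ v ≠ φ v)
    (hVu : φ u ∈ VV F W J φ₁ T) (hVp : φ p ∈ VV F W J φ₁ T) :
    pot n q F W J φ₁ (insert φ T) * ((n : ℝ) * (Real.exp 1 * q)) ≤ pot n q F W J φ₁ T := by
  have hn1 : (1 : ℝ) ≤ n := by exact_mod_cast hP.n1
  have hn0 : (0 : ℝ) < n := by linarith
  have heq0 : 0 < Real.exp 1 * q := mul_pos (Real.exp_pos _) hP.q0
  have hinj := hP.inj φ hφS
  obtain ⟨hVc, hUd, hUs⟩ := insert_facts hP hT hφS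
  set J' := newJ F W J φ₁ T φ with hJ'
  have hJ'J : J' ⊆ J := newJ_subset T φ
  have huJ' : u ∉ J' := fun h => (Finset.mem_filter.1 h).2 hVu
  have hpJ' : p ∉ J' := fun h => (Finset.mem_filter.1 h).2 hVp
  have hUcard0 : (UU F W J T).card + (tI F W J').card ≤ (UU F W J (insert φ T)).card := by
    have h1 := Finset.card_le_card hUs
    rw [Finset.card_union_of_disjoint hUd,
      Finset.card_image_of_injective _ (Sym2.map.injective hinj)] at h1
    exact h1
  have hvnb : v ∈ nbW F W u := by rw [hnb]; simp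
  have hpnb : p ∈ nbW F W u := by rw [hnb]; simp
  obtain ⟨hvW, hadjv⟩ := mem_nbW.1 hvnb
  obtain ⟨hpW, hadjp⟩ := mem_nbW.1 hpnb
  have huW : u ∈ W := hP.hJW hu
  set X := (n : ℝ) ^ (VV F W J φ₁ T).card * (Real.exp 1 * q) ^ (UU F W J T).card with hX
  have hX0 : 0 ≤ X := by positivity
  set A := (n : ℝ) ^ J'.card * (Real.exp 1 * q) ^ (tI F W J').card with hA
  have hA0 : 0 ≤ A := by positivity
  have hT1 : pot n q F W J φ₁ T = X := rfl
  rw [hT1]
  by_cases hvJ' : v ∈ J'
  · -- the deviation is a new vertex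
    have hpow : (Real.exp 1 * q) ^ (UU F W J (insert φ T)).card ≤
        (Real.exp 1 * q) ^ ((UU F W J T).card + (tI F W J').card) :=
      pow_le_pow_of_le_one heq0.le hP.qe hUcard0
    have hins : pot n q F W J φ₁ (insert φ T) ≤ X * A := by
      unfold pot
      rw [hVc]
      calc _ ≤ (n : ℝ) ^ ((VV F W J φ₁ T).card + J'.card) *
            (Real.exp 1 * q) ^ ((UU F W J T).card + (tI F W J').card) :=
            mul_le_mul_of_nonneg_left hpow (by positivity)
        _ = X * A := by rw [hX, hA, pow_add, pow_add]; ring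
    set J'' := insert u J' with hJ''
    have hJ''J : J'' ⊆ J := Finset.insert_subset hu hJ'J
    have hJ''c : J''.card = J'.card + 1 := Finset.card_insert_of_notMem huJ'
    have htI : tI F W J'' ⊆ insert s(u, p) (tI F W J') := by
      intro e he
      induction e using Sym2.ind with
      | _ a b =>
        obtain ⟨h1, h2, h3, h4⟩ := (mem_tI_pair (hJ''J.trans hP.hJW)).1 he
        by_cases hJa : a ∈ J' ∨ b ∈ J'
        · exact Finset.mem_insert_of_mem ((mem_tI_pair (hJ'J.trans hP.hJW)).2 ⟨h1, h2, h3, hJa⟩)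
        · push Not at hJa
          have hcase : a = u ∨ b = u := by
            rcases h4 with h | h
            · exact Or.inl ((Finset.mem_insert.1 h).resolve_right hJa.1)
            · exact Or.inr ((Finset.mem_insert.1 h).resolve_right hJa.2)
          have hother : ∀ w, w ∈ W → F.Adj u w → w ∉ J' → w = p := by
            intro w hw hadj hwJ
            have hm : w ∈ nbW F W u := mem_nbW.2 ⟨hw, hadj⟩
            rw [hnb] at hm
            rcases Finset.mem_insert.1 hm with h | h
            · exact h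
            · exfalso
              rw [Finset.mem_singleton.1 h] at hwJ
              exact hwJ hvJ'
          refine Finset.mem_insert.2 (Or.inl ?_)
          rcases hcase with rfl | rfl
          · rw [hother b h3 h1 hJa.2]
          · rw [hother a h2 h1.symm hJa.1]
            exact Sym2.eq_swap
    have hcardt : (tI F W J'').card ≤ (tI F W J').card + 1 :=
      (Finset.card_le_card htI).trans (Finset.card_insert_le _ _)
    have hlow := hP.low J'' hJ''J ⟨u, Finset.mem_insert_self _ _⟩
    have hpow2 : (Real.exp 1 * q) ^ ((tI F W J').card + 1) ≤ (Real.exp 1 * q) ^ (tI F W J'').card :=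
      pow_le_pow_of_le_one heq0.le hP.qe hcardt
    have h3 : A * ((n : ℝ) * (Real.exp 1 * q)) ≤ 1 := by
      have h4 : A * ((n : ℝ) * (Real.exp 1 * q)) =
          (n : ℝ) ^ J''.card * (Real.exp 1 * q) ^ ((tI F W J').card + 1) := by
        rw [hJ''c, hA, pow_succ, pow_succ]
        ring
      rw [h4]
      have h5 : (n : ℝ) ^ J''.card * (Real.exp 1 * q) ^ ((tI F W J').card + 1) ≤
          (n : ℝ) ^ J''.card * (Real.exp 1 * q) ^ (tI F W J'').card :=
        mul_le_mul_of_nonneg_left hpow2 (by positivity)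
      linarith
    have hg0 : 0 ≤ (n : ℝ) * (Real.exp 1 * q) := by positivity
    calc pot n q F W J φ₁ (insert φ T) * ((n : ℝ) * (Real.exp 1 * q))
        ≤ (X * A) * ((n : ℝ) * (Real.exp 1 * q)) := mul_le_mul_of_nonneg_right hins hg0
      _ = X * (A * ((n : ℝ) * (Real.exp 1 * q))) := by ring
      _ ≤ X * 1 := mul_le_mul_of_nonneg_left h3 hX0
      _ = X := mul_one _
  · -- the deviation is an old vertex, or the edge is new anyway
    set e0 : Sym2 V := s(φ u, φ v) with he0
    have he0new : e0 ∉ UU F W J T := by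
      intro h
      obtain ⟨σ, hσ, h2⟩ := Finset.mem_biUnion.1 h
      obtain ⟨e', he', h3⟩ := Finset.mem_image.1 h2
      obtain ⟨h4, h5, h6⟩ := hag σ hσ
      have hσinj := hP.inj σ (hT hσ)
      induction e' using Sym2.ind with
      | _ a b =>
        obtain ⟨h7, h8, h9, _⟩ := (mem_tI_pair hP.hJW).1 he'
        rw [Sym2.map_mk] at h3
        have hother : ∀ w, w ∈ W → F.Adj u w → σ w = φ v → False := by
          intro w hw hadj hσw
          have hm : w ∈ nbW F W u := mem_nbW.2 ⟨hw, hadj⟩
          rw [hnb] at hm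
          rcases Finset.mem_insert.1 hm with h | h
          · rw [h, h5] at hσw
            exact hpv (hinj hσw)
          · rw [Finset.mem_singleton.1 h] at hσw
            exact h6 hσw
        rcases Sym2.eq_iff.1 h3 with ⟨h10, h11⟩ | ⟨h10, h11⟩
        · have : a = u := hσinj (h10.trans h4.symm)
          subst this
          exact hother b h9 h7 h11
        · have : b = u := hσinj (h11.trans h4.symm)
          subst this
          exact hother a h8 h7.symm h10
    have he0new2 : e0 ∉ (tI F W J').image (Sym2.map φ) := by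
      intro h
      obtain ⟨e', he', h3⟩ := Finset.mem_image.1 h
      have h4 : e' = s(u, v) := by
        apply Sym2.map.injective hinj
        rw [h3]
        rfl
      rw [h4] at he'
      obtain ⟨_, _, _, h5⟩ := (mem_tI_pair (hJ'J.trans hP.hJW)).1 he'
      rcases h5 with h5 | h5
      · exact huJ' h5
      · exact hvJ' h5
    have he0mem : e0 ∈ UU F W J (insert φ T) := by
      rw [UU_insert]
      refine Finset.mem_union_left _ (Finset.mem_image.2 ⟨s(u, v), ?_, rfl⟩)
      exact (mem_tI_pair hP.hJW).2 ⟨hadjv, huW, hvW, Or.inl hu⟩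
    have hUcard : (UU F W J T).card + (tI F W J').card + 1 ≤ (UU F W J (insert φ T)).card := by
      have hsub : insert e0 (UU F W J T ∪ (tI F W J').image (Sym2.map φ)) ⊆
          UU F W J (insert φ T) := Finset.insert_subset he0mem hUs
      have h1 := Finset.card_le_card hsub
      rw [Finset.card_insert_of_notMem (by
        rw [Finset.mem_union]
        rintro (h | h)
        · exact he0new h
        · exact he0new2 h), Finset.card_union_of_disjoint hUd,
        Finset.card_image_of_injective _ (Sym2.map.injective hinj)] at h1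
      exact h1
    have hpow : (Real.exp 1 * q) ^ (UU F W J (insert φ T)).card ≤
        (Real.exp 1 * q) ^ ((UU F W J T).card + (tI F W J').card + 1) :=
      pow_le_pow_of_le_one heq0.le hP.qe hUcard
    have hins : pot n q F W J φ₁ (insert φ T) ≤ X * A * (Real.exp 1 * q) := by
      unfold pot
      rw [hVc]
      calc _ ≤ (n : ℝ) ^ ((VV F W J φ₁ T).card + J'.card) *
            (Real.exp 1 * q) ^ ((UU F W J T).card + (tI F W J').card + 1) :=
            mul_le_mul_of_nonneg_left hpow (by positivity)
        _ = X * A * (Real.exp 1 * q) := by rw [hX, hA, pow_add, pow_add, pow_add]; ring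
    have hA1 : A ≤ 1 := by
      by_cases hne : J'.Nonempty
      · exact (hP.low J' hJ'J hne).le
      · rw [Finset.not_nonempty_iff_eq_empty] at hne
        rw [hA, hne, tI_empty]
        simp
    have hu2 : (n : ℝ) * (Real.exp 1 * q) ^ 2 ≤ 1 := by
      have h1 := hP.low {u} (Finset.singleton_subset_iff.2 hu) (Finset.singleton_nonempty u)
      rw [card_tI_single huW, hnb, Finset.card_pair hpv, Finset.card_singleton, pow_one] at h1
      exact h1.le
    have hg0 : 0 ≤ (n : ℝ) * (Real.exp 1 * q) := by positivity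
    calc pot n q F W J φ₁ (insert φ T) * ((n : ℝ) * (Real.exp 1 * q))
        ≤ (X * A * (Real.exp 1 * q)) * ((n : ℝ) * (Real.exp 1 * q)) :=
          mul_le_mul_of_nonneg_right hins hg0
      _ = X * A * ((n : ℝ) * (Real.exp 1 * q) ^ 2) := by ring
      _ ≤ X * 1 * 1 := by
          apply mul_le_mul (mul_le_mul_of_nonneg_left hA1 hX0) hu2 (by positivity) (by positivity)
      _ = X := by ring

end Vale.Agent.Lib.P064V
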