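import Vale.Agent.Lib.P064V.Kraft

/-!
A growth order avoiding hubs as parents, and the bound on the number of closed classes.
-/

open Finset

namespace Vale.Agent.Lib.P064V

open Vale.Agent.Lib.P064 Vale.Agent.Lib.P064S
open scoped Classical

variable {V α : Type} [Fintype V] [Fintype α] {F : SimpleGraph α} {H : SimpleGraph V} {n : ℕ}
  {q : ℝ} {W J : Finset α} {S : Finset (α → V)} {φ₁ : α → V}

/-- The degree in the edges touching `J`. -/
noncomputable def dd (F : SimpleGraph α) (W J : Finset α) (u : α) : ℕ := (nb (tI F W J) u).card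

/-- Hubs. -/
noncomputable def hubs (F : SimpleGraph α) (W J : Finset α) (D0 : ℕ) : Finset α :=
  W.filter (fun u => D0 ≤ dd F W J u)

/-- The non hub vertices of `J`. -/
noncomputable def nonhub (F : SimpleGraph α) (W J : Finset α) (D0 : ℕ) : Finset α :=
  J \ hubs F W J D0

/-- The graph `F` restricted to `G`. -/
def gh (F : SimpleGraph α) (G : Finset α) : SimpleGraph α where
  Adj a b := F.Adj a b ∧ a ∈ G ∧ b ∈ G
  symm := ⟨fun _ _ h => ⟨h.1.symm, h.2.2, h.2.1⟩⟩
  loopless := ⟨fun a h => F.loopless.1 a h.1⟩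

/-- The class of `y` in the restricted graph. -/
noncomputable def cls (F : SimpleGraph α) (G : Finset α) (y : α) : Finset α :=
  G.filter (fun w => (gh F G).Reachable y w)

/-- All neighbours in `W` of a class lie in the class or in `Sh`. -/
def Closed (F : SimpleGraph α) (W Sh Z : Finset α) : Prop :=
  ∀ w ∈ Z, ∀ z ∈ W, F.Adj w z → z ∈ Sh ∨ z ∈ Z

/-- The closed classes. -/
noncomputable def CL (F : SimpleGraph α) (W J : Finset α) (D0 : ℕ) : Finset (Finset α) :=
  ((nonhub F W J D0).image (cls F (nonhub F W J D0))).filter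
    (Closed F W (hubs F W J D0))

lemma mem_cls {G : Finset α} {y w : α} : w ∈ cls F G y ↔ w ∈ G ∧ (gh F G).Reachable y w := by
  simp [cls]

lemma self_mem_cls {G : Finset α} {y : α} (hy : y ∈ G) : y ∈ cls F G y :=
  mem_cls.2 ⟨hy, SimpleGraph.Reachable.refl _⟩

lemma cls_eq_of_reach {G : Finset α} {y y' : α} (h : (gh F G).Reachable y y') :
    cls F G y = cls F G y' := by
  ext w
  rw [mem_cls, mem_cls]
  constructor
  · rintro ⟨h1, h2⟩
    exact ⟨h1, h.symm.trans h2⟩
  · rintro ⟨h1, h2⟩
    exact ⟨h1, h.trans h2⟩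

/-- A growth order avoiding hubs as parents. -/
theorem chain_hub {D0 : ℕ}
    (hconn : ∀ D : Finset α, W \ J ⊆ D → D ⊆ W → D ≠ W → ∃ u ∈ D, ∃ v ∈ W \ D, F.Adj u v)
    (hJW : J ⊆ W) : ∀ (k : ℕ) (D : Finset α), (W \ D).card = k → W \ J ⊆ D → D ⊆ W →
      ∀ par₀ : α → α, ∃ (par : α → α) (r : List α), (∀ u ∈ D, par u = par₀ u) ∧
        Chain F par D r ∧ r.Nodup ∧ D ∪ r.toFinset = W ∧
        (r.toFinset.filter (fun v => par v ∈ hubs F W J D0 ∧ v ∉ hubs F W J D0)).card ≤
          ((CL F W J D0).filter (fun Z => Disjoint Z D)).card := by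
  intro k
  induction k with
  | zero =>
    intro D h0 _ hDW par₀
    have hDeq : D = W := by
      apply Finset.Subset.antisymm hDW
      intro y hy
      by_contra hyD
      have : y ∈ W \ D := Finset.mem_sdiff.2 ⟨hy, hyD⟩
      rw [Finset.card_eq_zero.1 h0] at this
      simp at this
    refine ⟨par₀, [], fun _ _ => rfl, trivial, List.nodup_nil, ?_, by simp⟩
    simp [hDeq]
  | succ k ih =>
    intro D h0 hsub hDW par₀
    have hne : D ≠ W := by
      rintro rfl
      simp at h0
    set Sh := hubs F W J D0 with hSh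
    -- a common continuation
    have hgo : ∀ (u v : α), u ∈ D → v ∈ W \ D → F.Adj u v →
        ∃ (par : α → α) (r : List α), (∀ w ∈ D, par w = par₀ w) ∧ par v = u ∧
          Chain F par D (v :: r) ∧ (v :: r).Nodup ∧ D ∪ (v :: r).toFinset = W ∧
          (r.toFinset.filter (fun v => par v ∈ Sh ∧ v ∉ Sh)).card ≤
            ((CL F W J D0).filter (fun Z => Disjoint Z (insert v D))).card := by
      intro u v hu hv huv
      obtain ⟨hvW, hvD⟩ := Finset.mem_sdiff.1 hv
      have hcard : (W \ insert v D).card = k := by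
        have : W \ insert v D = (W \ D).erase v := by
          ext y
          simp only [Finset.mem_sdiff, Finset.mem_insert, Finset.mem_erase]
          tauto
        rw [this, Finset.card_erase_of_mem hv, h0]
        simp
      obtain ⟨par, r, h1, h2, h3, h4, h5⟩ := ih (insert v D) hcard
        (hsub.trans (Finset.subset_insert _ _)) (Finset.insert_subset hvW hDW)
        (Function.update par₀ v u)
      have hpv : par v = u := by
        rw [h1 v (Finset.mem_insert_self _ _)]
        simp
      refine ⟨par, r, ?_, hpv, ⟨hvD, ?_, ?_, h2⟩, ?_, ?_, h5⟩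
      · intro w hw
        rw [h1 w (Finset.mem_insert_of_mem hw), Function.update_of_ne]
        rintro rfl
        exact hvD hw
      · rw [hpv]
        exact hu
      · rw [hpv]
        exact huv
      · exact List.nodup_cons.2 ⟨h2.not_mem v (Finset.mem_insert_self _ _), h3⟩
      · rw [← h4]
        ext y
        simp only [Finset.mem_union, Finset.mem_insert, List.mem_toFinset, List.mem_cons]
        tauto
    -- monotonicity of the bound
    have hmono : ∀ v : α, ((CL F W J D0).filter (fun Z => Disjoint Z (insert v D))).card ≤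
        ((CL F W J D0).filter (fun Z => Disjoint Z D)).card := by
      intro v
      apply Finset.card_le_card
      intro Z hZ
      obtain ⟨h1, h2⟩ := Finset.mem_filter.1 hZ
      exact Finset.mem_filter.2 ⟨h1, h2.mono_right (Finset.subset_insert _ _)⟩
    -- the count for a member that is not counted
    have hfree : ∀ (par : α → α) (v : α) (r : List α), ¬ (par v ∈ Sh ∧ v ∉ Sh) →
        ((v :: r).toFinset.filter (fun v => par v ∈ Sh ∧ v ∉ Sh)).card ≤
          (r.toFinset.filter (fun v => par v ∈ Sh ∧ v ∉ Sh)).card := by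
      intro par v r hno
      apply Finset.card_le_card
      intro y hy
      obtain ⟨h1, h2⟩ := Finset.mem_filter.1 hy
      refine Finset.mem_filter.2 ⟨?_, h2⟩
      simp only [List.mem_toFinset, List.mem_cons] at h1 ⊢
      rcases h1 with rfl | h1
      · exact absurd h2 hno
      · exact h1
    by_cases hfirst : ∃ v ∈ W \ D, ∃ u ∈ D, u ∉ Sh ∧ F.Adj u v
    · obtain ⟨v, hv, u, hu, huSh, huv⟩ := hfirst
      obtain ⟨par, r, h1, hpv, h2, h3, h4, h5⟩ := hgo u v hu hv huv
      refine ⟨par, v :: r, h1, h2, h3, h4, ?_⟩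
      refine (hfree par v r ?_).trans (h5.trans (hmono v))
      rw [hpv]
      exact fun h => huSh h.1
    · push Not at hfirst
      obtain ⟨u, hu, v, hv, huv⟩ := hconn D hsub hDW hne
      obtain ⟨par, r, h1, hpv, h2, h3, h4, h5⟩ := hgo u v hu hv huv
      refine ⟨par, v :: r, h1, h2, h3, h4, ?_⟩
      by_cases hvSh : v ∈ Sh
      · refine (hfree par v r ?_).trans (h5.trans (hmono v))
        exact fun h => h.2 hvSh
      · -- a new closed class
        obtain ⟨hvW, hvD⟩ := Finset.mem_sdiff.1 hv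
        have hvJ : v ∈ J := by
          by_contra h
          exact hvD (hsub (Finset.mem_sdiff.2 ⟨hvW, h⟩))
        set G := nonhub F W J D0 with hG
        have hvG : v ∈ G := Finset.mem_sdiff.2 ⟨hvJ, hvSh⟩
        have hGJ : G ⊆ J := Finset.sdiff_subset
        have hGSh : ∀ y ∈ G, y ∉ Sh := fun y hy => (Finset.mem_sdiff.1 hy).2
        have hwalk : ∀ (a b : α), (gh F G).Walk a b → a ∉ D → b ∉ D := by
          intro a b p
          induction p with
          | nil => exact id
          | @cons a c b hac _ ih2 =>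
            intro ha
            apply ih2
            intro hc
            obtain ⟨h6, h7, h8⟩ := hac
            exact hfirst a (Finset.mem_sdiff.2 ⟨hJW (hGJ h7), ha⟩) c hc (hGSh c h8) h6.symm
        have hZdisj : Disjoint (cls F G v) D := by
          rw [Finset.disjoint_left]
          intro w hw hwD
          obtain ⟨_, h7⟩ := mem_cls.1 hw
          obtain ⟨p⟩ := h7
          exact hwalk v w p hvD hwD
        have hZclosed : Closed F W Sh (cls F G v) := by
          intro w hw z hz hadj
          by_cases hzSh : z ∈ Sh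
          · exact Or.inl hzSh
          · right
            have hwD : w ∉ D := Finset.disjoint_left.1 hZdisj hw
            obtain ⟨hwG, hwr⟩ := mem_cls.1 hw
            by_cases hzJ : z ∈ J
            · have hzG : z ∈ G := Finset.mem_sdiff.2 ⟨hzJ, hzSh⟩
              refine mem_cls.2 ⟨hzG, hwr.trans ?_⟩
              exact SimpleGraph.Adj.reachable ⟨hadj, hwG, hzG⟩
            · exfalso
              have hzD : z ∈ D := hsub (Finset.mem_sdiff.2 ⟨hz, hzJ⟩)
              exact hfirst w (Finset.mem_sdiff.2 ⟨hJW (hGJ hwG), hwD⟩) z hzD hzSh hadj.symm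
        have hZCL : cls F G v ∈ CL F W J D0 :=
          Finset.mem_filter.2 ⟨Finset.mem_image_of_mem _ hvG, hZclosed⟩
        have hcount : ((v :: r).toFinset.filter (fun v => par v ∈ Sh ∧ v ∉ Sh)).card ≤
            (r.toFinset.filter (fun v => par v ∈ Sh ∧ v ∉ Sh)).card + 1 := by
          have hs : (v :: r).toFinset.filter (fun v => par v ∈ Sh ∧ v ∉ Sh) ⊆
              insert v (r.toFinset.filter (fun v => par v ∈ Sh ∧ v ∉ Sh)) := by
            intro y hy
            obtain ⟨h6, h7⟩ := Finset.mem_filter.1 hy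
            simp only [List.mem_toFinset, List.mem_cons] at h6
            rcases h6 with rfl | h6
            · exact Finset.mem_insert_self _ _
            · exact Finset.mem_insert_of_mem (Finset.mem_filter.2 ⟨List.mem_toFinset.2 h6, h7⟩)
          exact (Finset.card_le_card hs).trans (Finset.card_insert_le _ _)
        have herase : (CL F W J D0).filter (fun Z => Disjoint Z (insert v D)) ⊆
            ((CL F W J D0).filter (fun Z => Disjoint Z D)).erase (cls F G v) := by
          intro Z hZ
          obtain ⟨h6, h7⟩ := Finset.mem_filter.1 hZ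
          refine Finset.mem_erase.2 ⟨?_, Finset.mem_filter.2
            ⟨h6, h7.mono_right (Finset.subset_insert _ _)⟩⟩
          rintro rfl
          exact Finset.disjoint_left.1 h7 (self_mem_cls hvG) (Finset.mem_insert_self _ _)
        have hcard2 : ((CL F W J D0).filter (fun Z => Disjoint Z (insert v D))).card + 1 ≤
            ((CL F W J D0).filter (fun Z => Disjoint Z D)).card := by
          have h6 := Finset.card_le_card herase
          rw [Finset.card_erase_of_mem (Finset.mem_filter.2 ⟨hZCL, hZdisj⟩)] at h6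
          have h7 : 0 < ((CL F W J D0).filter (fun Z => Disjoint Z D)).card :=
            Finset.card_pos.2 ⟨_, Finset.mem_filter.2 ⟨hZCL, hZdisj⟩⟩
          omega
        omega

/-- The bound on the closed classes. -/
theorem CL_budget (hP : Pin n q F H W J S φ₁) (hG : GoodDensity n q H) (hq1 : q ≤ 1)
    (hD : 1 ≤ (n : ℝ) * q) {φ₀ : α → V} (hφ₀ : φ₀ ∈ S) (D0 : ℕ) :
    ((CL F W J D0).card : ℝ) * (- Real.log q / (1 + Real.log ((n : ℝ) * q))) ≤
      ((hubs F W J D0).card : ℝ) * Real.log n := by
  have hn1 : (1 : ℝ) ≤ n := by exact_mod_cast hP.n1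
  have hn0 : (0 : ℝ) < n := by linarith
  have hq0 := hP.q0
  have heq0 : 0 < Real.exp 1 * q := mul_pos (Real.exp_pos _) hq0
  have hL0 : 0 ≤ Real.log n := Real.log_nonneg hn1
  have hlq : Real.log q ≤ 0 := Real.log_nonpos hq0.le hq1
  have hg : 0 ≤ Real.log ((n : ℝ) * q) := Real.log_nonneg hD
  have hgeq : Real.log ((n : ℝ) * q) = Real.log n + Real.log q := Real.log_mul hn0.ne' hq0.ne'
  set Sh := hubs F W J D0 with hSh
  set G0' := nonhub F W J D0 with hG0'
  set L := Real.log n with hLdef
  set lq := Real.log q with hlqdef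
  set g := Real.log ((n : ℝ) * q) with hgdef
  have hGpos : 0 < 1 + g := by linarith
  have hneq : (1 : ℝ) ≤ (n : ℝ) * (Real.exp 1 * q) := by
    have he : (1 : ℝ) ≤ Real.exp 1 := Real.one_le_exp (by norm_num)
    nlinarith
  -- facts on the classes
  have hCLsub : ∀ Z ∈ CL F W J D0, Z ⊆ J ∧ Z.Nonempty ∧ Closed F W Sh Z ∧
      ∃ y ∈ G0', Z = cls F G0' y := by
    intro Z hZ
    obtain ⟨h1, h2⟩ := Finset.mem_filter.1 hZ
    obtain ⟨y, hy, rfl⟩ := Finset.mem_image.1 h1
    refine ⟨?_, ⟨y, self_mem_cls hy⟩, h2, y, hy, rfl⟩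
    intro w hw
    exact (Finset.mem_sdiff.1 (mem_cls.1 hw).1).1
  have hmeet : ∀ Z ∈ CL F W J D0, ∀ Z' ∈ CL F W J D0, ∀ a ∈ Z, ∀ b ∈ Z', (a = b ∨ F.Adj a b) →
      Z = Z' := by
    intro Z hZ Z' hZ' a ha b hb hab
    obtain ⟨_, _, _, y, _, rfl⟩ := hCLsub Z hZ
    obtain ⟨_, _, _, y', _, rfl⟩ := hCLsub Z' hZ'
    obtain ⟨ha1, ha2⟩ := mem_cls.1 ha
    obtain ⟨hb1, hb2⟩ := mem_cls.1 hb
    apply cls_eq_of_reach
    refine ha2.trans (SimpleGraph.Reachable.trans ?_ hb2.symm)
    rcases hab with rfl | hab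
    · exact SimpleGraph.Reachable.refl _
    · exact SimpleGraph.Adj.reachable ⟨hab, ha1, hb1⟩
  -- each class costs at least `Q/G`
  have hcost : ∀ Z ∈ CL F W J D0, - lq / (1 + g) ≤
      ((tI F W Z).card : ℝ) * (- lq) - (Z.card : ℝ) * L := by
    intro Z hZ
    obtain ⟨h1, h2, _, _⟩ := hCLsub Z hZ
    have hlow := hP.low Z h1 h2
    set a := Z.card with ha
    set t := (tI F W Z).card with ht
    have hta : a + 1 ≤ t := by
      by_contra hcon
      have hle : t ≤ a := by omega
      have h3 : (Real.exp 1 * q) ^ a ≤ (Real.exp 1 * q) ^ t :=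
        pow_le_pow_of_le_one heq0.le hP.qe hle
      have h4 : (1 : ℝ) ≤ ((n : ℝ) * (Real.exp 1 * q)) ^ a := one_le_pow₀ hneq
      rw [mul_pow] at h4
      have h5 : (n : ℝ) ^ a * (Real.exp 1 * q) ^ a ≤ (n : ℝ) ^ a * (Real.exp 1 * q) ^ t :=
        mul_le_mul_of_nonneg_left h3 (by positivity)
      linarith
    have hlog : (a : ℝ) * L + (t : ℝ) * (1 + lq) < 0 := by
      have h3 := Real.log_lt_log (by positivity) hlow
      rw [Real.log_one, Real.log_mul (by positivity) (by positivity), Real.log_pow, Real.log_pow,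
        Real.log_mul (Real.exp_pos _).ne' hq0.ne', Real.log_exp] at h3
      exact h3
    have hta' : (a : ℝ) + 1 ≤ t := by exact_mod_cast hta
    have hGinv : - lq / (1 + g) * (1 + g) = - lq := by field_simp
    by_cases hcase : - lq / (1 + g) ≤ t
    · nlinarith
    · push Not at hcase
      have ha2 : (a : ℝ) ≤ - lq / (1 + g) := by linarith
      have h3 : ((a : ℝ) + 1) * (- lq) - a * L = - lq - a * g := by
        rw [hgeq]
        ring
      have h4 : (t : ℝ) * (- lq) - a * L ≥ - lq - a * g := by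
        rw [← h3]
        have : ((a : ℝ) + 1) * (- lq) ≤ t * (- lq) :=
          mul_le_mul_of_nonneg_right hta' (by linarith)
        linarith
      have h5 : (a : ℝ) * g ≤ - lq / (1 + g) * g := mul_le_mul_of_nonneg_right ha2 hg
      have h6 : - lq = - lq / (1 + g) + - lq / (1 + g) * g := by
        have : - lq / (1 + g) + - lq / (1 + g) * g = - lq / (1 + g) * (1 + g) := by ring
        rw [this, hGinv]
      linarith
  by_cases hCLne : (CL F W J D0).Nonempty
  swap
  · rw [Finset.not_nonempty_iff_eq_empty] at hCLne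
    rw [hCLne]
    simp only [Finset.card_empty, Nat.cast_zero, zero_mul]
    positivity
  -- the density inequality on the union
  set Ec := (CL F W J D0).biUnion (tI F W) with hEc
  set Jc := (CL F W J D0).biUnion id with hJc
  have hEccard : Ec.card = ∑ Z ∈ CL F W J D0, (tI F W Z).card := by
    apply Finset.card_biUnion
    intro Z hZ Z' hZ' hne
    rw [Function.onFun, Finset.disjoint_left]
    intro e he he'
    apply hne
    induction e using Sym2.ind with
    | _ a b =>
      obtain ⟨h1, _, _, _⟩ := hCLsub Z hZ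
      obtain ⟨h2, _, _, _⟩ := hCLsub Z' hZ'
      obtain ⟨h3, _, _, h4⟩ := (mem_tI_pair (h1.trans hP.hJW)).1 he
      obtain ⟨_, _, _, h5⟩ := (mem_tI_pair (h2.trans hP.hJW)).1 he'
      rcases h4 with h4 | h4 <;> rcases h5 with h5 | h5
      · exact hmeet Z hZ Z' hZ' a h4 a h5 (Or.inl rfl)
      · exact hmeet Z hZ Z' hZ' a h4 b h5 (Or.inr h3)
      · exact hmeet Z hZ Z' hZ' b h4 a h5 (Or.inr h3.symm)
      · exact hmeet Z hZ Z' hZ' b h4 b h5 (Or.inl rfl)
  have hJccard : Jc.card = ∑ Z ∈ CL F W J D0, Z.card := by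
    apply Finset.card_biUnion
    intro Z hZ Z' hZ' hne
    rw [Function.onFun, Finset.disjoint_left]
    intro a ha ha'
    exact hne (hmeet Z hZ Z' hZ' a ha a ha' (Or.inl rfl))
  have hinj := hP.inj φ₀ hφ₀
  set T := Ec.image (Sym2.map φ₀) with hT
  have hTcard : T.card = Ec.card := Finset.card_image_of_injective _ (Sym2.map.injective hinj)
  have hTedge : ∀ e ∈ T, e ∈ H.edgeSet := by
    intro e he
    obtain ⟨e', he', rfl⟩ := Finset.mem_image.1 he
    obtain ⟨Z, hZ, h2⟩ := Finset.mem_biUnion.1 he'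
    obtain ⟨h1, _, _, _⟩ := hCLsub Z hZ
    induction e' using Sym2.ind with
    | _ a b =>
      obtain ⟨h3, _, _, _⟩ := (mem_tI_pair (h1.trans hP.hJW)).1 h2
      exact (SimpleGraph.mem_edgeSet H).2 (hP.hom φ₀ hφ₀ a b h3)
  have hTne : T.Nonempty := by
    obtain ⟨Z, hZ⟩ := hCLne
    obtain ⟨_, ⟨w, hw⟩, _, _⟩ := hCLsub Z hZ
    have h1 : 0 < (tI F W Z).card := by
      by_contra hcon
      have h2 := hP.low Z (hCLsub Z hZ).1 ⟨w, hw⟩
      have h3 : (tI F W Z).card = 0 := by omega
      rw [h3, pow_zero, mul_one] at h2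
      have h4 : (1 : ℝ) ≤ (n : ℝ) ^ Z.card := one_le_pow₀ hn1
      linarith
    obtain ⟨e, he⟩ := Finset.card_pos.1 h1
    exact ⟨_, Finset.mem_image_of_mem _ (Finset.mem_biUnion.2 ⟨Z, hZ, he⟩)⟩
  have hden := density_of_good hG hq0 hq1 T hTedge hTne
  have hvert : (T.biUnion fun e => e.toFinset) ⊆ (Sh ∪ Jc).image φ₀ := by
    intro z hz
    obtain ⟨e, he, hze⟩ := Finset.mem_biUnion.1 hz
    obtain ⟨e', he', rfl⟩ := Finset.mem_image.1 he
    obtain ⟨Z, hZ, h2⟩ := Finset.mem_biUnion.1 he'
    obtain ⟨h1, _, hcl, _⟩ := hCLsub Z hZ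
    have hZJc : ∀ a ∈ Z, a ∈ Sh ∪ Jc := fun a ha =>
      Finset.mem_union_right _ (Finset.mem_biUnion.2 ⟨Z, hZ, ha⟩)
    induction e' using Sym2.ind with
    | _ a b =>
      obtain ⟨h3, h4, h5, h6⟩ := (mem_tI_pair (h1.trans hP.hJW)).1 h2
      have hboth : a ∈ Sh ∪ Jc ∧ b ∈ Sh ∪ Jc := by
        rcases h6 with h6 | h6
        · refine ⟨hZJc a h6, ?_⟩
          rcases hcl a h6 b h5 h3 with h7 | h7
          · exact Finset.mem_union_left _ h7
          · exact hZJc b h7
        · refine ⟨?_, hZJc b h6⟩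
          rcases hcl b h6 a h4 h3.symm with h7 | h7
          · exact Finset.mem_union_left _ h7
          · exact hZJc a h7
      rw [Sym2.mem_toFinset, Sym2.map_mk, Sym2.mem_iff] at hze
      rcases hze with rfl | rfl
      · exact Finset.mem_image_of_mem _ hboth.1
      · exact Finset.mem_image_of_mem _ hboth.2
  have hvcard : (T.biUnion fun e => e.toFinset).card ≤ Sh.card + Jc.card :=
    (Finset.card_le_card hvert).trans (Finset.card_image_le.trans (Finset.card_union_le _ _))
  have hden2 : (1 : ℝ) ≤ (n : ℝ) ^ (Sh.card + Jc.card) * q ^ Ec.card := by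
    rw [hTcard] at hden
    refine hden.trans ?_
    exact mul_le_mul_of_nonneg_right (pow_le_pow_right₀ hn1 hvcard) (by positivity)
  have hlog : 0 ≤ ((Sh.card : ℝ) + Jc.card) * L + (Ec.card : ℝ) * lq := by
    have h3 := Real.log_le_log (by norm_num) hden2
    rw [Real.log_one, Real.log_mul (by positivity) (by positivity), Real.log_pow, Real.log_pow] at h3
    push_cast at h3
    exact h3
  have hsum : ((CL F W J D0).card : ℝ) * (- lq / (1 + g)) ≤
      ∑ Z ∈ CL F W J D0, (((tI F W Z).card : ℝ) * (- lq) - (Z.card : ℝ) * L) := by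
    have := Finset.sum_le_sum hcost
    rwa [Finset.sum_const, nsmul_eq_mul] at this
  have hsum2 : ∑ Z ∈ CL F W J D0, (((tI F W Z).card : ℝ) * (- lq) - (Z.card : ℝ) * L) =
      (Ec.card : ℝ) * (- lq) - (Jc.card : ℝ) * L := by
    rw [Finset.sum_sub_distrib, ← Finset.sum_mul, ← Finset.sum_mul, hEccard, hJccard]
    push_cast
    rfl
  rw [hsum2] at hsum
  nlinarith

end Vale.Agent.Lib.P064V
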