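import Vale.Agent.Lib.P064V.Gain
import Vale.Agent.Lib.P064S.HWalk

/-!
Counting along a growth order with prefix siblings, and the deepest first construction of a
subfamily with a small potential.
-/

open Finset

namespace Vale.Agent.Lib.P064V

open Vale.Agent.Lib.P064 Vale.Agent.Lib.P064S
open scoped Classical

variable {V α : Type} [Fintype V] [Fintype α] {F : SimpleGraph α} {H : SimpleGraph V} {n : ℕ}
  {q : ℝ} {W J : Finset α} {S : Finset (α → V)} {φ₁ : α → V}

/-- Members of the family which agree with `φ` on `D`. -/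
noncomputable def sib (S : Finset (α → V)) (D : Finset α) (φ : α → V) : Finset (α → V) :=
  S.filter (fun σ => ∀ u ∈ D, σ u = φ u)

/-- The values at `v` of the members which agree with `φ` on `D`. -/
noncomputable def val (S : Finset (α → V)) (D : Finset α) (φ : α → V) (v : α) : Finset V :=
  (sib S D φ).image (fun σ => σ v)

/-- The product of the branching numbers along `φ`. -/
noncomputable def mp (S : Finset (α → V)) (φ : α → V) : List α → Finset α → ℝ
  | [], _ => 1
  | v :: r, D => ((val S D φ v).card : ℝ) * mp S φ r (insert v D)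

lemma mem_sib {D : Finset α} {φ σ : α → V} :
    σ ∈ sib S D φ ↔ σ ∈ S ∧ ∀ u ∈ D, σ u = φ u := by
  simp [sib]

lemma sib_eq_of_mem {D : Finset α} {φ σ : α → V} (h : σ ∈ sib S D φ) : sib S D σ = sib S D φ := by
  ext τ
  rw [mem_sib, mem_sib]
  obtain ⟨_, h2⟩ := mem_sib.1 h
  constructor
  · rintro ⟨h3, h4⟩
    exact ⟨h3, fun u hu => (h4 u hu).trans (h2 u hu)⟩
  · rintro ⟨h3, h4⟩
    exact ⟨h3, fun u hu => (h4 u hu).trans (h2 u hu).symm⟩

lemma mp_nonneg (φ : α → V) : ∀ (r : List α) (D : Finset α), 0 ≤ mp S φ r D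
  | [], _ => by simp [mp]
  | v :: r, D => by
    rw [mp]
    exact mul_nonneg (Nat.cast_nonneg _) (mp_nonneg φ r _)

/-- The count along a growth order. -/
theorem kraft : ∀ (r : List α) (D : Finset α) (φ₂ : α → V) (B : ℝ), 0 ≤ B →
    (∀ φ ∈ sib S D φ₂, mp S φ r D ≤ B) →
    (((sib S D φ₂).image (proj (D ∪ r.toFinset))).card : ℝ) ≤ B := by
  intro r
  induction r with
  | nil =>
    intro D φ₂ B hB hprod
    by_cases hS : (sib S D φ₂).Nonempty
    · obtain ⟨φ₃, hφ₃⟩ := hS
      have h1 : (sib S D φ₂).image (proj (D ∪ ([] : List α).toFinset)) ⊆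
          {proj (D ∪ ([] : List α).toFinset) φ₃} := by
        intro ψ hψ
        obtain ⟨φ, hφ, rfl⟩ := Finset.mem_image.1 hψ
        rw [Finset.mem_singleton]
        funext y
        unfold proj
        by_cases hyD : y ∈ D
        · simp [hyD, (mem_sib.1 hφ).2 y hyD, (mem_sib.1 hφ₃).2 y hyD]
        · simp [hyD]
      have h2 := Finset.card_le_card h1
      rw [Finset.card_singleton] at h2
      have h3 := hprod φ₃ hφ₃
      simp only [mp] at h3
      have h4 : (((sib S D φ₂).image (proj (D ∪ ([] : List α).toFinset))).card : ℝ) ≤ 1 := by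
        exact_mod_cast h2
      linarith
    · rw [Finset.not_nonempty_iff_eq_empty] at hS
      rw [hS]
      simpa using hB
  | cons v r ih =>
    intro D φ₂ B hB hprod
    by_cases hS : (sib S D φ₂).Nonempty
    swap
    · rw [Finset.not_nonempty_iff_eq_empty] at hS
      rw [hS]
      simpa using hB
    set Z := val S D φ₂ v with hZ
    have hZne : Z.Nonempty := hS.image _
    have hZpos : (0 : ℝ) < Z.card := by
      exact_mod_cast Finset.card_pos.2 hZne
    have hpick : ∀ b ∈ Z, ∃ φ ∈ sib S D φ₂, φ v = b := by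
      intro b hb
      obtain ⟨φ, hφ, h⟩ := Finset.mem_image.1 hb
      exact ⟨φ, hφ, h⟩
    choose! pick hpick1 hpick2 using hpick
    have hsubsib : ∀ b ∈ Z, sib S (insert v D) (pick b) ⊆ sib S D φ₂ := by
      intro b hb τ hτ
      obtain ⟨h1, h2⟩ := mem_sib.1 hτ
      refine mem_sib.2 ⟨h1, fun u hu => ?_⟩
      rw [h2 u (Finset.mem_insert_of_mem hu)]
      exact (mem_sib.1 (hpick1 b hb)).2 u hu
    have hIH : ∀ b ∈ Z, (((sib S (insert v D) (pick b)).image
        (proj (insert v D ∪ r.toFinset))).card : ℝ) ≤ B / Z.card := by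
      intro b hb
      refine ih (insert v D) (pick b) (B / Z.card) (by positivity) ?_
      intro φ hφ
      have h1 := hprod φ (hsubsib b hb hφ)
      rw [mp] at h1
      have h2 : val S D φ v = Z := by
        unfold val
        rw [sib_eq_of_mem (hsubsib b hb hφ)]
        rfl
      rw [h2] at h1
      rw [le_div_iff₀ hZpos, mul_comm]
      exact h1
    have hsub : (sib S D φ₂).image (proj (D ∪ (v :: r).toFinset)) ⊆
        Z.biUnion (fun b => (sib S (insert v D) (pick b)).image
          (proj (insert v D ∪ r.toFinset))) := by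
      intro ψ hψ
      obtain ⟨φ, hφ, rfl⟩ := Finset.mem_image.1 hψ
      rw [union_insert_toFinset]
      have hb : φ v ∈ Z := Finset.mem_image_of_mem _ hφ
      refine Finset.mem_biUnion.2 ⟨φ v, hb, Finset.mem_image_of_mem _ ?_⟩
      refine mem_sib.2 ⟨(mem_sib.1 hφ).1, fun u hu => ?_⟩
      rcases Finset.mem_insert.1 hu with rfl | hu2
      · exact (hpick2 _ hb).symm
      · rw [(mem_sib.1 hφ).2 u hu2]
        exact ((mem_sib.1 (hpick1 _ hb)).2 u hu2).symm
    have h1 : (((sib S D φ₂).image (proj (D ∪ (v :: r).toFinset))).card : ℝ) ≤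
        ∑ b ∈ Z, (((sib S (insert v D) (pick b)).image
          (proj (insert v D ∪ r.toFinset))).card : ℝ) := by
      have := (Finset.card_le_card hsub).trans Finset.card_biUnion_le
      exact_mod_cast this
    refine h1.trans ?_
    calc ∑ b ∈ Z, (((sib S (insert v D) (pick b)).image
          (proj (insert v D ∪ r.toFinset))).card : ℝ)
        ≤ ∑ _b ∈ Z, B / Z.card := Finset.sum_le_sum hIH
      _ = B := by
        rw [Finset.sum_const, nsmul_eq_mul]
        field_simp

/-- A level is thin if the parent is a vertex of `J` of degree two. -/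
def thin (F : SimpleGraph α) (W J : Finset α) (par : α → α) (v : α) : Prop :=
  par v ∈ J ∧ (nbW F W (par v)).card = 2

/-- The number of deviations at thin levels. -/
noncomputable def marks (F : SimpleGraph α) (W J : Finset α) (par : α → α) (S : Finset (α → V))
    (φ : α → V) : List α → Finset α → ℕ
  | [], _ => 0
  | v :: r, D => (if thin F W J par v then (val S D φ v).card - 1 else 0) +
      marks F W J par S φ r (insert v D)

/-- Every value gives an edge of the union at the image of the parent. -/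
def Wit (par : α → α) (S : Finset (α → V)) (φ : α → V) (U : Finset (Sym2 V)) :
    List α → Finset α → Prop
  | [], _ => True
  | v :: r, D => (∀ z ∈ val S D φ v, s(φ (par v), z) ∈ U) ∧ Wit par S φ U r (insert v D)

lemma Wit.mono {par : α → α} {φ : α → V} {U U' : Finset (Sym2 V)} (hU : U ⊆ U') :
    ∀ {r : List α} {D : Finset α}, Wit par S φ U r D → Wit par S φ U' r D
  | [], _, _ => trivial
  | _ :: _, _, h => ⟨fun z hz => hU (h.1 z hz), Wit.mono hU h.2⟩

lemma UU_mono {T T' : Finset (α → V)} (h : T ⊆ T') : UU F W J T ⊆ UU F W J T' :=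
  Finset.biUnion_subset_biUnion_of_subset_left _ h

lemma VV_mono {T T' : Finset (α → V)} (h : T ⊆ T') : VV F W J φ₁ T ⊆ VV F W J φ₁ T' := by
  unfold VV ZZ
  exact Finset.union_subset_union_right (Finset.biUnion_subset_biUnion_of_subset_left _ h)

/-- An edge of a member with a vertex in `J`. -/
lemma edge_mem_UU (hJW : J ⊆ W) {T : Finset (α → V)} {σ : α → V} (hσ : σ ∈ T) {a b : α}
    (hadj : F.Adj a b) (ha : a ∈ W) (hb : b ∈ J) : s(σ a, σ b) ∈ UU F W J T := by
  refine Finset.mem_biUnion.2 ⟨σ, hσ, Finset.mem_image.2 ⟨s(a, b), ?_, rfl⟩⟩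
  exact (mem_tI_pair hJW).2 ⟨hadj, ha, hJW hb, Or.inr hb⟩

/-- The step of one level. -/
lemma level_step (hP : Pin n q F H W J S φ₁) {φ₀ : α → V} (hφ₀ : φ₀ ∈ S) {par : α → α}
    {D : Finset α} {v : α} (hpar : par v ∈ D) (hadj : F.Adj (par v) v) (hvJ : v ∈ J)
    (hparW : par v ∈ W)
    (hthin : thin F W J par v → par (par v) ∈ D ∧ F.Adj (par (par v)) (par v) ∧
      par (par v) ≠ v ∧ par (par v) ∈ W)
    {T₁ : Finset (α → V)} (hT₁ : T₁ ⊆ sib S D φ₀) (hφT₁ : φ₀ ∈ T₁)
    (hT₁v : ∀ σ ∈ T₁, σ v = φ₀ v) :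
    ∀ Z' : Finset V, Z' ⊆ (val S D φ₀ v).erase (φ₀ v) →
      ∃ T₂ : Finset (α → V), T₁ ⊆ T₂ ∧ T₂ ⊆ sib S D φ₀ ∧
        (∀ σ ∈ T₂, σ v ∈ insert (φ₀ v) Z') ∧
        (∀ z ∈ Z', s(φ₀ (par v), z) ∈ UU F W J T₂) ∧
        pot n q F W J φ₁ T₂ * ((n : ℝ) * (Real.exp 1 * q)) ^
          (if thin F W J par v then Z'.card else 0) ≤ pot n q F W J φ₁ T₁ := by
  have hsibS : sib S D φ₀ ⊆ S := Finset.filter_subset _ _
  have hg0 : 0 ≤ (n : ℝ) * (Real.exp 1 * q) := by
    have := hP.q0
    positivity
  intro Z'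
  induction Z' using Finset.induction_on with
  | empty =>
    intro _
    refine ⟨T₁, subset_rfl, hT₁, ?_, by simp, ?_⟩
    · intro σ hσ
      rw [hT₁v σ hσ]
      simp
    · simp
  | insert z Z'' hz ih =>
    intro hsub
    have hzZ : z ∈ (val S D φ₀ v).erase (φ₀ v) := hsub (Finset.mem_insert_self _ _)
    obtain ⟨T₂, h1, h2, h3, h4, h5⟩ := ih ((Finset.subset_insert _ _).trans hsub)
    obtain ⟨hz1, hz2⟩ := Finset.mem_erase.1 hzZ
    obtain ⟨φ, hφ, hφv⟩ := Finset.mem_image.1 hz2
    have hφS := hsibS hφ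
    have hφag := (mem_sib.1 hφ).2
    have hφpar : φ (par v) = φ₀ (par v) := hφag _ hpar
    refine ⟨insert φ T₂, h1.trans (Finset.subset_insert _ _), Finset.insert_subset hφ h2, ?_, ?_, ?_⟩
    · intro σ hσ
      rcases Finset.mem_insert.1 hσ with rfl | hσ2
      · rw [hφv]
        exact Finset.mem_insert_of_mem (Finset.mem_insert_self _ _)
      · have := h3 σ hσ2
        rcases Finset.mem_insert.1 this with h | h
        · rw [h]
          exact Finset.mem_insert_self _ _
        · exact Finset.mem_insert_of_mem (Finset.mem_insert_of_mem h)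
    · intro y hy
      rcases Finset.mem_insert.1 hy with rfl | hy2
      · have h6 := edge_mem_UU hP.hJW (Finset.mem_insert_self φ T₂) hadj hparW hvJ
        rwa [hφpar, hφv] at h6
      · exact UU_mono (Finset.subset_insert _ _) (h4 y hy2)
    · by_cases hth : thin F W J par v
      · have hT2S : T₂ ⊆ S := h2.trans hsibS
        obtain ⟨hu, hdeg⟩ := hth
        obtain ⟨hp1, hp2, hp3, hp4⟩ := hthin ⟨hu, hdeg⟩
        have hnb : nbW F W (par v) = {par (par v), v} := by
          symm
          apply Finset.eq_of_subset_of_card_le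
          · intro w hw
            rcases Finset.mem_insert.1 hw with rfl | hw2
            · exact mem_nbW.2 ⟨hp4, hp2.symm⟩
            · rw [Finset.mem_singleton.1 hw2]
              exact mem_nbW.2 ⟨hP.hJW hvJ, hadj⟩
          · rw [hdeg, Finset.card_pair hp3]
        have hVu : φ (par v) ∈ VV F W J φ₁ T₂ := by
          rw [hφpar]
          refine mem_VV_of_mem_UU hP hT2S (e := s(φ₀ (par v), φ₀ v)) ?_ (by simp)
          exact edge_mem_UU hP.hJW (h1 hφT₁) hadj hparW hvJ
        have hVp : φ (par (par v)) ∈ VV F W J φ₁ T₂ := by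
          rw [hφag _ hp1]
          refine mem_VV_of_mem_UU hP hT2S (e := s(φ₀ (par (par v)), φ₀ (par v))) ?_ (by simp)
          exact edge_mem_UU hP.hJW (h1 hφT₁) hp2 hp4 hu
        have hgain := pot_gain hP hT2S hφS hu hnb hp3 (fun σ hσ => by
          have hσag := (mem_sib.1 (h2 hσ)).2
          refine ⟨by rw [hσag _ hpar, hφpar], by rw [hσag _ hp1, hφag _ hp1], ?_⟩
          rw [hφv]
          intro h6
          have h7 := h3 σ hσ
          rw [h6] at h7
          rcases Finset.mem_insert.1 h7 with h | h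
          · exact hz1 h
          · exact hz h) hVu hVp
        have hc : (insert z Z'').card = Z''.card + 1 := Finset.card_insert_of_notMem hz
        have hif1 : (if thin F W J par v then (insert z Z'').card else 0) = Z''.card + 1 := by
          rw [if_pos ⟨hu, hdeg⟩, hc]
        have hif2 : (if thin F W J par v then Z''.card else 0) = Z''.card := by
          rw [if_pos ⟨hu, hdeg⟩]
        rw [hif2] at h5
        rw [hif1, pow_succ]
        calc _ = (pot n q F W J φ₁ (insert φ T₂) * ((n : ℝ) * (Real.exp 1 * q))) *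
              ((n : ℝ) * (Real.exp 1 * q)) ^ Z''.card := by ring
          _ ≤ pot n q F W J φ₁ T₂ * ((n : ℝ) * (Real.exp 1 * q)) ^ Z''.card :=
              mul_le_mul_of_nonneg_right hgain (pow_nonneg hg0 _)
          _ ≤ _ := h5
      · rw [if_neg hth] at h5 ⊢
        simp only [pow_zero, mul_one] at h5 ⊢
        exact (pot_step hP (h2.trans hsibS) hφS).trans h5

/-- The deepest first construction. -/
theorem build (hP : Pin n q F H W J S φ₁) {φ₀ : α → V} (hφ₀ : φ₀ ∈ S) {par : α → α} :
    ∀ (r : List α) (D : Finset α), Chain F par D r → (∀ u ∈ D, u ∈ J → par u ∈ D) →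
      (∀ u ∈ J, F.Adj (par u) u ∧ par u ∈ W) → (∀ v ∈ r, v ∈ J) → (∀ u ∈ D, u ∈ W) →
      ∃ T : Finset (α → V), T ⊆ sib S D φ₀ ∧ φ₀ ∈ T ∧
        pot n q F W J φ₁ T * ((n : ℝ) * (Real.exp 1 * q)) ^ marks F W J par S φ₀ r D ≤
          pot n q F W J φ₁ {φ₀} ∧
        Wit par S φ₀ (UU F W J T) r D := by
  have hφsib : ∀ D : Finset α, φ₀ ∈ sib S D φ₀ := fun D => mem_sib.2 ⟨hφ₀, fun _ _ => rfl⟩
  have hg0 : 0 ≤ (n : ℝ) * (Real.exp 1 * q) := by
    have := hP.q0
    positivity
  intro r
  induction r with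
  | nil =>
    intro D _ _ _ _ _
    refine ⟨{φ₀}, Finset.singleton_subset_iff.2 (hφsib D), Finset.mem_singleton_self _, ?_, trivial⟩
    simp [marks]
  | cons v r ih =>
    intro D hC hI hpar hr hDW
    obtain ⟨hvD, hpD, hadj, hC'⟩ := hC
    have hvJ : v ∈ J := hr v List.mem_cons_self
    have hI' : ∀ u ∈ insert v D, u ∈ J → par u ∈ insert v D := by
      intro u hu huJ
      rcases Finset.mem_insert.1 hu with rfl | hu2
      · exact Finset.mem_insert_of_mem hpD
      · exact Finset.mem_insert_of_mem (hI u hu2 huJ)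
    have hDW' : ∀ u ∈ insert v D, u ∈ W := by
      intro u hu
      rcases Finset.mem_insert.1 hu with rfl | hu2
      · exact hP.hJW hvJ
      · exact hDW u hu2
    obtain ⟨T₁, h1, h2, h3, h4⟩ := ih (insert v D) hC' hI' hpar
      (fun w hw => hr w (List.mem_cons_of_mem _ hw)) hDW'
    have hT₁D : T₁ ⊆ sib S D φ₀ := by
      intro σ hσ
      obtain ⟨h5, h6⟩ := mem_sib.1 (h1 hσ)
      exact mem_sib.2 ⟨h5, fun u hu => h6 u (Finset.mem_insert_of_mem hu)⟩
    have hT₁v : ∀ σ ∈ T₁, σ v = φ₀ v := fun σ hσ =>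
      (mem_sib.1 (h1 hσ)).2 v (Finset.mem_insert_self _ _)
    have hthin : thin F W J par v → par (par v) ∈ D ∧ F.Adj (par (par v)) (par v) ∧
        par (par v) ≠ v ∧ par (par v) ∈ W := by
      rintro ⟨hu, _⟩
      refine ⟨hI _ hpD hu, (hpar _ hu).1, ?_, (hpar _ hu).2⟩
      intro h
      rw [← h] at hvD
      exact hvD (hI _ hpD hu)
    obtain ⟨T₂, h5, h6, _, h8, h9⟩ := level_step hP hφ₀ hpD hadj hvJ (hDW _ hpD) hthin hT₁D h2 hT₁v
      ((val S D φ₀ v).erase (φ₀ v)) subset_rfl
    refine ⟨T₂, h6, h5 h2, ?_, ?_, Wit.mono (UU_mono h5) h4⟩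
    · have hmem : φ₀ v ∈ val S D φ₀ v := Finset.mem_image_of_mem _ (hφsib D)
      have hcard : ((val S D φ₀ v).erase (φ₀ v)).card = (val S D φ₀ v).card - 1 :=
        Finset.card_erase_of_mem hmem
      have hm : marks F W J par S φ₀ (v :: r) D =
          (if thin F W J par v then ((val S D φ₀ v).erase (φ₀ v)).card else 0) +
            marks F W J par S φ₀ r (insert v D) := by
        rw [marks, hcard]
      rw [hm, pow_add]
      calc _ = (pot n q F W J φ₁ T₂ * ((n : ℝ) * (Real.exp 1 * q)) ^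
            (if thin F W J par v then ((val S D φ₀ v).erase (φ₀ v)).card else 0)) *
            ((n : ℝ) * (Real.exp 1 * q)) ^ marks F W J par S φ₀ r (insert v D) := by ring
        _ ≤ pot n q F W J φ₁ T₁ * ((n : ℝ) * (Real.exp 1 * q)) ^
            marks F W J par S φ₀ r (insert v D) :=
            mul_le_mul_of_nonneg_right h9 (pow_nonneg hg0 _)
        _ ≤ _ := h3
    · intro z hz
      by_cases hzv : z = φ₀ v
      · rw [hzv]
        exact edge_mem_UU hP.hJW (h5 h2) hadj (hDW _ hpD) hvJ
      · exact h8 z (Finset.mem_erase.2 ⟨hzv, hz⟩)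

/-- The product of the branching numbers. -/
theorem mp_le (par : α → α) {φ₀ : α → V} {U : Finset (Sym2 V)} :
    ∀ (r : List α) (D : Finset α), Wit par S φ₀ U r D → (∀ D', φ₀ ∈ sib S D' φ₀) →
      mp S φ₀ r D ≤ Real.exp (marks F W J par S φ₀ r D) *
        ((r.filter (fun v => ¬ thin F W J par v)).map
          (fun v => ((nb U (φ₀ (par v))).card : ℝ))).prod := by
  intro r
  induction r with
  | nil =>
    intro D _ _
    simp [mp, marks]
  | cons v r ih =>
    intro D hW hφ
    have h1 := ih (insert v D) hW.2 hφ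
    rw [mp, marks]
    have hmem : φ₀ v ∈ val S D φ₀ v := Finset.mem_image_of_mem _ (hφ D)
    have hpos : 1 ≤ (val S D φ₀ v).card := Finset.card_pos.2 ⟨_, hmem⟩
    have hm0 := mp_nonneg (S := S) φ₀ r (insert v D)
    by_cases hth : thin F W J par v
    · rw [if_pos hth, List.filter_cons_of_neg (by simpa using hth)]
      push_cast
      rw [Nat.cast_sub hpos, Real.exp_add, mul_assoc]
      push_cast
      have h2 : ((val S D φ₀ v).card : ℝ) ≤ Real.exp (((val S D φ₀ v).card : ℝ) - 1) := by
        have := Real.add_one_le_exp (((val S D φ₀ v).card : ℝ) - 1)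
        linarith
      exact mul_le_mul h2 h1 hm0 (Real.exp_pos _).le
    · rw [if_neg hth, List.filter_cons_of_pos (by simpa using hth), List.map_cons, List.prod_cons]
      simp only [zero_add]
      have h2 : ((val S D φ₀ v).card : ℝ) ≤ ((nb U (φ₀ (par v))).card : ℝ) := by
        have : val S D φ₀ v ⊆ nb U (φ₀ (par v)) := fun z hz => mem_nb.2 (hW.1 z hz)
        exact_mod_cast Finset.card_le_card this
      calc _ ≤ ((nb U (φ₀ (par v))).card : ℝ) * (Real.exp (marks F W J par S φ₀ r (insert v D)) *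
            ((r.filter (fun v => ¬ thin F W J par v)).map
              (fun v => ((nb U (φ₀ (par v))).card : ℝ))).prod) :=
            mul_le_mul h2 h1 hm0 (Nat.cast_nonneg _)
        _ = _ := by ring

end Vale.Agent.Lib.P064V
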