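import Vale.Agent.Lib.P064V.Fiber2
import Vale.Agent.Lib.P064S.Main

/-!
The induction over vertex sets and the improved bound on embeddings.
-/

open Finset

namespace Vale.Agent.Lib.P064V

open Vale.Agent.Lib.P064
open scoped Classical

variable {V α : Type} [Fintype V] [Fintype α] {H : SimpleGraph V} {F : SimpleGraph α} {n : ℕ}
  {q : ℝ}

/-- The main induction. -/
theorem sp_main2 (hG : GoodDensity n q H) (hn : 2 ≤ n) (hV : Fintype.card V ≤ n) (hq0 : 0 < q)
    (hqe : q ≤ Real.exp (-1)) (hL4 : 4 ≤ Real.log n) (hD : 1 ≤ (n : ℝ) * q)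
    (hD2 : (Real.exp 1 * ((n : ℝ) * q)) ^ 2 < n) (k : ℕ) :
    ∀ (W : Finset α) (S : Finset (α → V)), W.card ≤ k →
      (∀ φ ∈ S, Function.Injective φ) →
      (∀ φ ∈ S, ∀ u v, F.Adj u v → H.Adj (φ u) (φ v)) →
      ((S.image (proj W)).card : ℝ) ≤
        spA ^ W.card * spK2 n q ^ (eIn F W).card * ((n : ℝ) ^ W.card * q ^ (eIn F W).card) := by
  have hn0 : (0 : ℝ) < n := by
    have : 0 < n := by omega
    exact_mod_cast this
  have hn' : 1 ≤ n := by omega
  have hA0 : (0 : ℝ) ≤ spA := by
    have := spA_one_le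
    linarith
  have hK0 : (0 : ℝ) ≤ spK2 n q := by
    unfold spK2
    have h1 : (0 : ℝ) ≤ Real.log n / ((n : ℝ) * q) := div_nonneg (by linarith) (by positivity)
    have h2 : (0 : ℝ) ≤ 1 + Real.log n / ((n : ℝ) * q) := by linarith
    positivity
  induction k with
  | zero =>
    intro W S hW _ _
    have hW0 : W = ∅ := Finset.card_eq_zero.1 (Nat.le_zero.1 hW)
    subst hW0
    have h1 : (S.image (proj (∅ : Finset α))).card ≤ 1 := by
      refine Finset.card_le_one.2 ?_
      intro a ha b hb
      obtain ⟨φ, _, rfl⟩ := Finset.mem_image.1 ha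
      obtain ⟨φ', _, rfl⟩ := Finset.mem_image.1 hb
      funext x
      simp [proj]
    rw [eIn_empty]
    simp only [Finset.card_empty, pow_zero, mul_one]
    exact_mod_cast h1
  | succ k ih =>
    intro W S hW hinj hhom
    by_cases hne : W.Nonempty
    swap
    · rw [Finset.not_nonempty_iff_eq_empty] at hne
      subst hne
      exact ih ∅ S (by simp) hinj hhom
    by_cases hS : S.Nonempty
    swap
    · rw [Finset.not_nonempty_iff_eq_empty] at hS
      subst hS
      simp only [Finset.image_empty, Finset.card_empty, Nat.cast_zero]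
      positivity
    obtain ⟨φ₁, hφ₁⟩ := hS
    have hτ := not_low_of_member (W := W) hG hn' hq0 hqe (hinj φ₁ hφ₁) (hhom φ₁ hφ₁)
    obtain ⟨I, hIW, hIne, hIτ, hImin⟩ := exists_min_not_low (n := n) (q := q) (F := F) hne hτ
    set E := W \ I with hE
    have hU : E ∪ I = W := Finset.sdiff_union_of_subset hIW
    have hdisj : Disjoint I E := Finset.disjoint_sdiff
    have hcard : W.card = E.card + I.card := by
      rw [← hU]
      exact Finset.card_union_of_disjoint hdisj.symm
    have hIc : 0 < I.card := Finset.card_pos.2 hIne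
    set m := (newE F E I).card with hm
    have hcardE : (eIn F W).card = (eIn F E).card + m := by
      rw [← hU]
      exact eIn_union_card
    set B : ℝ := spA ^ I.card * spK2 n q ^ m * ((n : ℝ) ^ I.card * q ^ m) with hB
    have hB0 : 0 ≤ B := by positivity
    have hstep := card_image_proj_step_real S (D := E) (D' := W) (B := B) Finset.sdiff_subset hB0 (by
      intro φ₂ _
      have hsub : S.filter (fun φ => proj E φ = proj E φ₂) ⊆ S := Finset.filter_subset _ _
      have := sp_fiber2 (F := F) hG hn hV hq0 hqe hL4 hD hD2 (E := E) (I := I) hdisj hIne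
        (by rw [hU]; exact hIτ) (by rw [hU]; exact hImin)
        (S := S.filter (fun φ => proj E φ = proj E φ₂)) (φ₀ := φ₂)
        (fun φ hφ => hinj φ (hsub hφ)) (fun φ hφ => hhom φ (hsub hφ))
        (fun φ hφ x hx => proj_eq_apply hx (Finset.mem_filter.1 hφ).2)
      rw [hU] at this
      exact this)
    have hih := ih E S (by omega) hinj hhom
    calc ((S.image (proj W)).card : ℝ) ≤ B * (S.image (proj E)).card := hstep
      _ ≤ B * (spA ^ E.card * spK2 n q ^ (eIn F E).card *
            ((n : ℝ) ^ E.card * q ^ (eIn F E).card)) := mul_le_mul_of_nonneg_left hih hB0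
      _ = _ := by
          rw [hcard, hcardE, hB]
          ring


/-- The embedding bound. -/
theorem embBound_sparse2 (hG : GoodDensity n q H) (hn : 2 ≤ n) (hV : Fintype.card V ≤ n)
    (hq0 : 0 < q) (hqe : q ≤ Real.exp (-1)) (hL4 : 4 ≤ Real.log n) (hD : 1 ≤ (n : ℝ) * q)
    (hD2 : (Real.exp 1 * ((n : ℝ) * q)) ^ 2 < n) :
    EmbBound n H ((spA * Real.exp 1) ^ 2 * spK2 n q * q) := by
  intro β _ F hiso hvn
  have h := sp_main2 (α := β) (F := F) hG hn hV hq0 hqe hL4 hD hD2 (Fintype.card β) univ (emb F H)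
    (by simp) (fun φ hφ => (mem_emb.1 hφ).1) (fun φ hφ => (mem_emb.1 hφ).2)
  have hcard : ((emb F H).image (proj (univ : Finset β))).card = (emb F H).card :=
    Finset.card_image_of_injective _ proj_univ_injective
  rw [hcard, Finset.card_univ] at h
  refine h.trans ?_
  set e := (eIn F univ).card with he
  set v := Fintype.card β with hv
  have hve : v ≤ 2 * e := (vertices_le_darts hiso).trans darts_card_le
  have hnd := pow_le_exp_descFactorial hvn
  set d : ℝ := (n.descFactorial v : ℝ) with hd
  have hd0 : 0 ≤ d := Nat.cast_nonneg _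
  set E := Real.exp 1 with hE
  have hE1 : 1 ≤ E := Real.one_le_exp (by norm_num)
  have hA1 : 1 ≤ spA := spA_one_le
  have hL0 : 0 ≤ Real.log n := by linarith
  have hnq0 : 0 < (n : ℝ) * q := by linarith
  have hK0 : 0 ≤ spK2 n q := by
    unfold spK2
    have : 0 ≤ Real.log n / ((n : ℝ) * q) := div_nonneg hL0 hnq0.le
    positivity
  have hb : (1 : ℝ) ≤ spA * E := by nlinarith
  have hpow : (spA * E) ^ v ≤ (spA * E) ^ (2 * e) := pow_le_pow_right₀ hb hve
  have hA0 : 0 ≤ spA := by linarith
  calc spA ^ v * spK2 n q ^ e * ((n : ℝ) ^ v * q ^ e)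
      ≤ spA ^ v * spK2 n q ^ e * ((E ^ v * d) * q ^ e) := by
        gcongr
    _ = (spA * E) ^ v * (spK2 n q ^ e * q ^ e * d) := by
        rw [mul_pow]
        ring
    _ ≤ (spA * E) ^ (2 * e) * (spK2 n q ^ e * q ^ e * d) := by
        gcongr
    _ = ((spA * E) ^ 2 * spK2 n q * q) ^ e * d := by
        rw [pow_mul (spA * E) 2 e, mul_pow, mul_pow]
        ring



end Vale.Agent.Lib.P064V
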