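import Vale.Agent.Lib.P064S.NumF

/-!
The numerics of the improved count over a minimal set.
-/

open Finset

namespace Vale.Agent.Lib.P064V

open Vale.Agent.Lib.P064
open scoped Classical

variable {n : ℕ} {q : ℝ}

/-- The logarithm of the pinned count per unit of excess. -/
noncomputable def spM (n : ℕ) (q : ℝ) : ℝ :=
  3 * Real.log n / (1 + spG n q) + 24 * Real.log (Real.log n + 2) + 26

/-- The loss exponent per vertex. -/
noncomputable def spKap2 (n : ℕ) (q : ℝ) : ℝ :=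
  (spG n q + 1) * spM n q / (- Real.log q - 1)

/-- The loss per edge. -/
noncomputable def spK2 (n : ℕ) (q : ℝ) : ℝ :=
  Real.exp 1 * (1 + Real.log n / ((n : ℝ) * q)) * Real.exp (2 * spKap2 n q)

lemma one_add_le_spM (hD : 1 ≤ (n : ℝ) * q) (hL : 0 ≤ Real.log n) :
    1 + Real.log (Real.log n + 2) ≤ spM n q := by
  have hg := spG_nonneg hD
  have ht : 0 ≤ Real.log (Real.log n + 2) := Real.log_nonneg (by linarith)
  have h : 0 ≤ 3 * Real.log n / (1 + spG n q) := div_nonneg (by linarith) (by linarith)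
  unfold spM
  linarith

lemma spM_nonneg (hD : 1 ≤ (n : ℝ) * q) (hL : 0 ≤ Real.log n) : 0 ≤ spM n q := by
  have h := one_add_le_spM hD hL
  have ht : 0 ≤ Real.log (Real.log n + 2) := Real.log_nonneg (by linarith)
  linarith

lemma spKap2_nonneg (hD : 1 ≤ (n : ℝ) * q) (hL : 0 ≤ Real.log n) (hQ : 1 < - Real.log q) :
    0 ≤ spKap2 n q := by
  have h1 := spG_nonneg hD
  have h2 := spM_nonneg hD hL
  unfold spKap2
  apply div_nonneg
  · exact mul_nonneg (by linarith) h2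
  · linarith

lemma one_le_spK2 (hD : 1 ≤ (n : ℝ) * q) (hL : 0 ≤ Real.log n) (hQ : 1 < - Real.log q) :
    1 ≤ spK2 n q := by
  have h1 := spKap2_nonneg hD hL hQ
  unfold spK2
  have hD0 : 0 < (n : ℝ) * q := by linarith
  have h2 : 1 ≤ Real.exp 1 := Real.one_le_exp (by norm_num)
  have h3 : 1 ≤ 1 + Real.log n / ((n : ℝ) * q) := by
    have : 0 ≤ Real.log n / ((n : ℝ) * q) := div_nonneg hL hD0.le
    linarith
  have h4 : 1 ≤ Real.exp (2 * spKap2 n q) := Real.one_le_exp (by linarith)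
  have h5 : 1 ≤ Real.exp 1 * (1 + Real.log n / ((n : ℝ) * q)) := by
    nlinarith
  nlinarith

/-- A factor `1 + L / D` at `D`: what a pendant vertex costs. -/
lemma spK2_pendant (hD : 1 ≤ (n : ℝ) * q) (hL : 0 ≤ Real.log n) (hQ : 1 < - Real.log q) :
    Real.exp 2 * (1 + Real.log n / ((n : ℝ) * q)) ≤ spA * spK2 n q := by
  have h1 := spKap2_nonneg hD hL hQ
  have hD0 : 0 < (n : ℝ) * q := by linarith
  have h2 : 1 ≤ Real.exp 1 := Real.one_le_exp (by norm_num)
  have h3 : 1 ≤ 1 + Real.log n / ((n : ℝ) * q) := by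
    have : 0 ≤ Real.log n / ((n : ℝ) * q) := div_nonneg hL hD0.le
    linarith
  have h4 : 1 ≤ Real.exp (2 * spKap2 n q) := Real.one_le_exp (by linarith)
  have he2 : 0 < Real.exp 2 := Real.exp_pos 2
  unfold spA spK2
  set X := 1 + Real.log n / ((n : ℝ) * q) with hX
  have h5 : X ≤ Real.exp 1 * X * Real.exp (2 * spKap2 n q) := by
    have : 1 ≤ Real.exp 1 * Real.exp (2 * spKap2 n q) := by nlinarith
    nlinarith
  have h6 : Real.exp 2 * X ≤ Real.exp 2 * (Real.exp 1 * X * Real.exp (2 * spKap2 n q)) :=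
    mul_le_mul_of_nonneg_left h5 he2.le
  have h7 : 0 ≤ Real.exp 2 * (Real.exp 1 * X * Real.exp (2 * spKap2 n q)) := by positivity
  nlinarith

/-- The pinned count when the excess is positive. -/
lemma sp_P_large2 (hD : 1 ≤ (n : ℝ) * q) (hL : 0 ≤ Real.log n) (hQ : 1 < - Real.log q)
    {a x b : ℕ} (hx : 1 ≤ x) (hb : b ≤ x + 1)
    (hxa : (x : ℝ) * (- Real.log q - 1) ≤ a * (spG n q + 1)) :
    Real.exp (((b : ℝ) + 1) * (Real.log n / (1 + spG n q) + 2) +
        ((x : ℝ) + 1) * (10 + 12 * Real.log (Real.log n + 2))) ≤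
      Real.exp (a * spKap2 n q) := by
  have hg := spG_nonneg hD
  have hQ1 : 0 < - Real.log q - 1 := by linarith
  have hM := spM_nonneg hD hL
  apply Real.exp_le_exp.2
  have hx1 : (1 : ℝ) ≤ x := by exact_mod_cast hx
  have hb1 : (b : ℝ) ≤ x + 1 := by exact_mod_cast hb
  have ht : 0 ≤ Real.log (Real.log n + 2) := Real.log_nonneg (by linarith)
  have hLG : 0 ≤ Real.log n / (1 + spG n q) := div_nonneg hL (by linarith)
  have h1 : ((b : ℝ) + 1) * (Real.log n / (1 + spG n q) + 2) +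
      ((x : ℝ) + 1) * (10 + 12 * Real.log (Real.log n + 2)) ≤ x * spM n q := by
    have h2 : ((b : ℝ) + 1) * (Real.log n / (1 + spG n q) + 2) ≤
        (3 * x) * (Real.log n / (1 + spG n q) + 2) :=
      mul_le_mul_of_nonneg_right (by linarith) (by linarith)
    have h3 : ((x : ℝ) + 1) * (10 + 12 * Real.log (Real.log n + 2)) ≤
        (2 * x) * (10 + 12 * Real.log (Real.log n + 2)) :=
      mul_le_mul_of_nonneg_right (by linarith) (by linarith)
    have h4 : spM n q = 3 * (Real.log n / (1 + spG n q)) +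
        24 * Real.log (Real.log n + 2) + 26 := by
      unfold spM
      ring
    rw [h4]
    nlinarith
  refine h1.trans ?_
  unfold spKap2
  rw [mul_div_assoc', le_div_iff₀ hQ1]
  have h4 : (x : ℝ) * (- Real.log q - 1) * spM n q ≤ (a * (spG n q + 1)) * spM n q :=
    mul_le_mul_of_nonneg_right hxa hM
  nlinarith

/-- The pinned count on a long closed cycle. -/
lemma sp_P_cycle2 (hq0 : 0 < q) (hD : 1 ≤ (n : ℝ) * q) (hL : 0 ≤ Real.log n)
    (hQ : 1 < - Real.log q) {a : ℕ} (hlong : 1 ≤ ((n : ℝ) * q) ^ (2 * a) * q) :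
    Real.exp ((((0 : ℕ) : ℝ) + 1) * (Real.log n / (1 + spG n q) + 2) +
        (((0 : ℕ) : ℝ) + 1) * (10 + 12 * Real.log (Real.log n + 2))) ≤
      Real.exp (a * spKap2 n q) := by
  have hg := spG_nonneg hD
  have hQ1 : 0 < - Real.log q - 1 := by linarith
  have hnq : 0 < (n : ℝ) * q := by linarith
  have hM := spM_nonneg hD hL
  have hlog : 0 ≤ ((2 * a : ℕ) : ℝ) * spG n q + Real.log q := by
    have h1 := Real.log_le_log one_pos hlong
    rw [Real.log_one, Real.log_mul (by positivity) hq0.ne', Real.log_pow] at h1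
    exact h1
  have hag : - Real.log q ≤ 2 * (a : ℝ) * spG n q := by
    push_cast at hlog
    linarith
  apply Real.exp_le_exp.2
  have ht : 0 ≤ Real.log (Real.log n + 2) := Real.log_nonneg (by linarith)
  have hLG : 0 ≤ Real.log n / (1 + spG n q) := div_nonneg hL (by linarith)
  have h1 : (((0 : ℕ) : ℝ) + 1) * (Real.log n / (1 + spG n q) + 2) +
      (((0 : ℕ) : ℝ) + 1) * (10 + 12 * Real.log (Real.log n + 2)) ≤ spM n q / 2 := by
    have h4 : spM n q = 3 * (Real.log n / (1 + spG n q)) +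
        24 * Real.log (Real.log n + 2) + 26 := by
      unfold spM
      ring
    rw [h4]
    push_cast
    linarith
  refine h1.trans ?_
  unfold spKap2
  rw [mul_div_assoc', le_div_iff₀ hQ1]
  have ha0 : (0 : ℝ) ≤ a := Nat.cast_nonneg _
  have h5 : - Real.log q - 1 ≤ 2 * ((a : ℝ) * (spG n q + 1)) := by nlinarith
  have h6 : (- Real.log q - 1) * spM n q ≤ 2 * ((a : ℝ) * (spG n q + 1)) * spM n q :=
    mul_le_mul_of_nonneg_right h5 hM
  nlinarith

/-- The base numerics: the factor `a ^ 2` and the power of `spK2` in terms of `κ`. -/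
private lemma exp_mul_kap_le (hD : 1 ≤ (n : ℝ) * q) (hL : 0 ≤ Real.log n) (hQ : 1 < - Real.log q)
    (a : ℕ) : Real.exp (a * spKap2 n q) ≤ spK2 n q ^ a := by
  have hk := spKap2_nonneg hD hL hQ
  have hnq : 0 < (n : ℝ) * q := by linarith
  have h1 : Real.exp (a * spKap2 n q) = Real.exp (spKap2 n q) ^ a := by
    rw [← Real.exp_nat_mul]
  rw [h1]
  apply pow_le_pow_left₀ (Real.exp_pos _).le
  unfold spK2
  have he : (1 : ℝ) ≤ Real.exp 1 := Real.one_le_exp (by norm_num)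
  have hfr : 0 ≤ Real.log n / ((n : ℝ) * q) := div_nonneg hL hnq.le
  have h2 : Real.exp (spKap2 n q) ≤ Real.exp (2 * spKap2 n q) := by
    apply Real.exp_le_exp.2
    linarith
  have h3 : (1 : ℝ) ≤ Real.exp 1 * (1 + Real.log n / ((n : ℝ) * q)) := by
    nlinarith
  have h4 : 0 < Real.exp (2 * spKap2 n q) := Real.exp_pos _
  nlinarith

private lemma sq_mul_le_pow {a : ℕ} (ha : 1 ≤ a) : ((a : ℝ)) ^ 2 * Real.exp 2 ≤ spA ^ a := by
  have h1 := sq_le_four_pow a
  have hE : (1 : ℝ) ≤ Real.exp 2 := Real.one_le_exp (by norm_num)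
  have h2 : Real.exp 2 ≤ Real.exp 2 ^ a := by
    calc Real.exp 2 = Real.exp 2 ^ 1 := (pow_one _).symm
      _ ≤ Real.exp 2 ^ a := pow_le_pow_right₀ hE ha
  have h3 : (4 : ℝ) ^ a ≤ 64 ^ a := pow_le_pow_left₀ (by norm_num) (by norm_num) _
  unfold spA
  rw [mul_pow]
  have h4 : (0 : ℝ) ≤ (a : ℝ) ^ 2 := by positivity
  have h5 : (0 : ℝ) ≤ Real.exp 2 := by positivity
  have h6 : (0 : ℝ) ≤ Real.exp 2 ^ a := by positivity
  exact mul_le_mul (h1.trans h3) h2 h5 (by positivity)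

/-- Final inequality, first alternative. -/
lemma sp_final_A2 (hD : 1 ≤ (n : ℝ) * q) (hL : 0 ≤ Real.log n) (hQ : 1 < - Real.log q)
    {a m t : ℕ} {ρ P : ℝ} (ha : 1 ≤ a) (ham : a ≤ m) (hρ : 0 ≤ ρ)
    (ht : (t : ℝ) ≤ Real.exp 2 * ρ) (hP : P ≤ Real.exp (a * spKap2 n q)) (hP0 : 0 ≤ P) :
    (a : ℝ) * (t * a) * P ≤ spA ^ a * spK2 n q ^ m * ρ := by
  have hK1 := one_le_spK2 hD hL hQ
  have hK0 : 0 < spK2 n q := by linarith
  have h1 := exp_mul_kap_le hD hL hQ a
  have h2 := sq_mul_le_pow ha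
  have hP2 : P ≤ spK2 n q ^ m := hP.trans (h1.trans (pow_le_pow_right₀ hK1 ham))
  have hA0 : (0 : ℝ) ≤ spA ^ a := by
    have := spA_one_le
    positivity
  calc (a : ℝ) * (t * a) * P = ((a : ℝ) ^ 2 * t) * P := by ring
    _ ≤ ((a : ℝ) ^ 2 * (Real.exp 2 * ρ)) * P := by gcongr
    _ = ((a : ℝ) ^ 2 * Real.exp 2) * P * ρ := by ring
    _ ≤ spA ^ a * spK2 n q ^ m * ρ := by
        apply mul_le_mul_of_nonneg_right _ hρ
        exact mul_le_mul h2 hP2 hP0 hA0

/-- Final inequality, second alternative. -/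
lemma sp_final_B2 (hD : 1 ≤ (n : ℝ) * q) (hL4 : 4 ≤ Real.log n)
    (hQ2 : Real.log n / 2 ≤ - Real.log q)
    {a x b t : ℕ} {ρ P : ℝ} (ha : 1 ≤ a) (hx : 1 ≤ x) (hb : b ≤ x + 1) (hρ : 0 ≤ ρ)
    (hxa : (x : ℝ) * (- Real.log q - 1) ≤ a * (spG n q + 1))
    (ht : (t : ℝ) ≤ b * Real.log n) (hP : P ≤ Real.exp (a * spKap2 n q)) (hP0 : 0 ≤ P)
    (hρ' : Real.exp (-((a + x : ℕ) : ℝ)) ≤ ρ) :
    (a : ℝ) * (t * a) * P ≤ spA ^ a * spK2 n q ^ (a + x) * ρ := by
  have hL0 : 0 ≤ Real.log n := by linarith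
  have hQ : 1 < - Real.log q := by linarith
  have hQ1 : 0 < - Real.log q - 1 := by linarith
  have hnq : 0 < (n : ℝ) * q := by linarith
  have hg := spG_nonneg hD
  have hK1 := one_le_spK2 hD hL0 hQ
  have hK0 : 0 < spK2 n q := by linarith
  have hk := spKap2_nonneg hD hL0 hQ
  set L := Real.log n with hLdef
  have hlogL : 0 ≤ Real.log (L + 2) := Real.log_nonneg (by linarith)
  -- the excess against the exponent
  set M := spM n q with hM
  have hM1 : 1 + Real.log (L + 2) ≤ M := by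
    rw [hM]
    exact one_add_le_spM hD hL0
  have hkap : spKap2 n q = (spG n q + 1) * M / (- Real.log q - 1) := rfl
  have hax : (x : ℝ) * M ≤ a * spKap2 n q := by
    rw [hkap]
    have h1 : (x : ℝ) ≤ a * (spG n q + 1) / (- Real.log q - 1) := by
      rw [le_div_iff₀ hQ1]
      exact hxa
    have hM0 : 0 ≤ M := by linarith
    calc (x : ℝ) * M ≤ (a * (spG n q + 1) / (- Real.log q - 1)) * M :=
          mul_le_mul_of_nonneg_right h1 hM0
      _ = _ := by ring
  have hx1 : (1 : ℝ) ≤ x := by exact_mod_cast hx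
  have hexp : (x : ℝ) + Real.log (L + 2) ≤ a * spKap2 n q := by
    have : (x : ℝ) + Real.log (L + 2) ≤ (x : ℝ) * M := by nlinarith
    linarith
  -- `b * L` is at most the exponential
  have hbL : (b : ℝ) * L ≤ Real.exp (a * spKap2 n q) := by
    have h1 : (b : ℝ) ≤ x + 1 := by exact_mod_cast hb
    have h2 : (x : ℝ) + 1 ≤ Real.exp x := by
      have := Real.add_one_le_exp (x : ℝ)
      linarith
    have h3 : Real.exp (Real.log (L + 2)) = L + 2 := Real.exp_log (by linarith)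
    have h4 : Real.exp ((x : ℝ) + Real.log (L + 2)) ≤ Real.exp (a * spKap2 n q) :=
      Real.exp_le_exp.2 hexp
    rw [Real.exp_add, h3] at h4
    have h5 : 0 < Real.exp (x : ℝ) := Real.exp_pos _
    calc (b : ℝ) * L ≤ Real.exp x * (L + 2) := by
          apply mul_le_mul (h1.trans h2) (by linarith) hL0 h5.le
      _ ≤ _ := h4
  -- the factor `exp m` from `ρ`
  set m := a + x with hmdef
  have hρ1 : 1 ≤ Real.exp (m : ℝ) * ρ := by
    have h1 := mul_le_mul_of_nonneg_left hρ' (Real.exp_pos (m : ℝ)).le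
    rw [← Real.exp_add] at h1
    simpa using h1
  have hfr : 0 ≤ L / ((n : ℝ) * q) := div_nonneg hL0 hnq.le
  have hE1 : (1 : ℝ) ≤ Real.exp 1 := Real.one_le_exp (by norm_num)
  have hK2 : Real.exp 1 * Real.exp (2 * spKap2 n q) ≤ spK2 n q := by
    unfold spK2
    have h0 : 0 ≤ Real.exp 1 * Real.exp (2 * spKap2 n q) := by positivity
    calc Real.exp 1 * Real.exp (2 * spKap2 n q)
        = 1 * (Real.exp 1 * Real.exp (2 * spKap2 n q)) := (one_mul _).symm
      _ ≤ (1 + Real.log n / ((n : ℝ) * q)) * (Real.exp 1 * Real.exp (2 * spKap2 n q)) := by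
          apply mul_le_mul_of_nonneg_right _ h0
          linarith
      _ = _ := by ring
  have hma : a ≤ m := Nat.le_add_right _ _
  -- the power of `spK2`
  have hpow : Real.exp (m : ℝ) * (Real.exp (a * spKap2 n q)) ^ 2 ≤ spK2 n q ^ m := by
    have h1 : Real.exp (m : ℝ) = Real.exp 1 ^ m := by
      rw [← Real.exp_nat_mul]
      simp
    have h2 : (Real.exp (a * spKap2 n q)) ^ 2 ≤ Real.exp (2 * spKap2 n q) ^ m := by
      rw [← Real.exp_nat_mul, ← Real.exp_nat_mul]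
      apply Real.exp_le_exp.2
      have : (a : ℝ) ≤ m := by exact_mod_cast hma
      push_cast
      nlinarith
    calc Real.exp (m : ℝ) * (Real.exp (a * spKap2 n q)) ^ 2
        ≤ Real.exp 1 ^ m * Real.exp (2 * spKap2 n q) ^ m := by
          rw [h1]
          exact mul_le_mul_of_nonneg_left h2 (by positivity)
      _ = (Real.exp 1 * Real.exp (2 * spKap2 n q)) ^ m := (mul_pow _ _ _).symm
      _ ≤ spK2 n q ^ m := pow_le_pow_left₀ (by positivity) hK2 _
  have hsq := sq_le_four_pow a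
  have hA : (4 : ℝ) ^ a ≤ spA ^ a := by
    apply pow_le_pow_left₀ (by norm_num)
    unfold spA
    have : (1 : ℝ) ≤ Real.exp 2 := Real.one_le_exp (by norm_num)
    linarith
  have hA0 : (0 : ℝ) ≤ (a : ℝ) ^ 2 := by positivity
  have hte : (t : ℝ) ≤ Real.exp (a * spKap2 n q) := ht.trans hbL
  have ht0 : (0 : ℝ) ≤ t := Nat.cast_nonneg _
  have hE0 : 0 < Real.exp (a * spKap2 n q) := Real.exp_pos _
  calc (a : ℝ) * (t * a) * P = (a : ℝ) ^ 2 * (t * P) := by ring
    _ ≤ (a : ℝ) ^ 2 * (Real.exp (a * spKap2 n q) * Real.exp (a * spKap2 n q)) := by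
        apply mul_le_mul_of_nonneg_left _ hA0
        exact mul_le_mul hte hP hP0 hE0.le
    _ = (a : ℝ) ^ 2 * (Real.exp (a * spKap2 n q)) ^ 2 := by ring
    _ ≤ (a : ℝ) ^ 2 * (Real.exp (a * spKap2 n q)) ^ 2 * (Real.exp (m : ℝ) * ρ) :=
        le_mul_of_one_le_right (by positivity) hρ1
    _ = (a : ℝ) ^ 2 * (Real.exp (m : ℝ) * (Real.exp (a * spKap2 n q)) ^ 2) * ρ := by ring
    _ ≤ spA ^ a * spK2 n q ^ m * ρ := by
        apply mul_le_mul_of_nonneg_right _ hρ
        exact mul_le_mul (hsq.trans hA) hpow (by positivity) (by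
          have := spA_one_le
          positivity)

/-- Final inequality, short cycle. -/
lemma sp_final_C2 (hD : 1 ≤ (n : ℝ) * q) (hL : 0 ≤ Real.log n) (hQ : 1 < - Real.log q)
    {a t : ℕ} {ρ P : ℝ} (ha : 1 ≤ a) (hρ : 0 ≤ ρ)
    (ht : (t : ℝ) ≤ Real.exp 2 * ρ) (hP : P ≤ 4) (hP0 : 0 ≤ P) :
    (a : ℝ) * (t * a) * P ≤ spA ^ a * spK2 n q ^ a * ρ := by
  have hK1 := one_le_spK2 hD hL hQ
  have hKa : (1 : ℝ) ≤ spK2 n q ^ a := one_le_pow₀ hK1
  have hsq := sq_le_four_pow a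
  have hE : (1 : ℝ) ≤ Real.exp 2 := Real.one_le_exp (by norm_num)
  have h2 : Real.exp 2 ≤ Real.exp 2 ^ a := by
    calc Real.exp 2 = Real.exp 2 ^ 1 := (pow_one _).symm
      _ ≤ Real.exp 2 ^ a := pow_le_pow_right₀ hE ha
  have h4 : (4 : ℝ) ≤ 4 ^ a := by
    calc (4 : ℝ) = 4 ^ 1 := (pow_one _).symm
      _ ≤ 4 ^ a := pow_le_pow_right₀ (by norm_num) ha
  have h16 : (4 : ℝ) ^ a * 4 ^ a ≤ 64 ^ a := by
    rw [← mul_pow]
    exact pow_le_pow_left₀ (by norm_num) (by norm_num) _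
  have hA : ((a : ℝ)) ^ 2 * 4 * Real.exp 2 ≤ spA ^ a := by
    unfold spA
    rw [mul_pow]
    have h5 : ((a : ℝ)) ^ 2 * 4 ≤ 64 ^ a := by
      calc ((a : ℝ)) ^ 2 * 4 ≤ 4 ^ a * 4 ^ a :=
            mul_le_mul hsq h4 (by norm_num) (by positivity)
        _ ≤ 64 ^ a := h16
    exact mul_le_mul h5 h2 (by positivity) (by positivity)
  have hA0 : (0 : ℝ) ≤ (a : ℝ) ^ 2 := by positivity
  have hA1 : (0 : ℝ) ≤ spA ^ a := by
    have := spA_one_le
    positivity
  calc (a : ℝ) * (t * a) * P = (a : ℝ) ^ 2 * t * P := by ring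
    _ ≤ (a : ℝ) ^ 2 * (Real.exp 2 * ρ) * 4 := by gcongr
    _ = ((a : ℝ) ^ 2 * 4 * Real.exp 2) * ρ := by ring
    _ ≤ spA ^ a * ρ := mul_le_mul_of_nonneg_right hA hρ
    _ ≤ spA ^ a * spK2 n q ^ a * ρ := by
        apply mul_le_mul_of_nonneg_right _ hρ
        exact le_mul_of_one_le_right hA1 hKa



end Vale.Agent.Lib.P064V
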