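import Vale.Agent.Lib.P064V.Hub
import Vale.Agent.Lib.P064S.HPin

/-!
The new pinned bound.
-/

open Finset

namespace Vale.Agent.Lib.P064V

open Vale.Agent.Lib.P064 Vale.Agent.Lib.P064S
open scoped Classical

variable {V α : Type} [Fintype V] [Fintype α] {F : SimpleGraph α} {H : SimpleGraph V} {n : ℕ}
  {q : ℝ} {W J : Finset α} {S : Finset (α → V)} {φ₁ : α → V}

lemma chain_par {par : α → α} : ∀ {r : List α} {D : Finset α}, Chain F par D r →
    ∀ v ∈ r, F.Adj (par v) v ∧ par v ∈ D ∪ r.toFinset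
  | [], _, _, _, hv => by simp at hv
  | a :: r, D, h, v, hv => by
    obtain ⟨_, h3, h4, h5⟩ := h
    rcases List.mem_cons.1 hv with rfl | hv2
    · exact ⟨h4, Finset.mem_union_left _ h3⟩
    · have := chain_par h5 v hv2
      rw [union_insert_toFinset]
      exact this

lemma chain_pp {par : α → α} : ∀ {r : List α} {D : Finset α}, Chain F par D r →
    (∀ u ∈ D, u ∈ J → par u ∈ D) → ∀ v ∈ r, par v ∈ J → par (par v) ≠ v
  | [], _, _, _, _, hv => by simp at hv
  | a :: r, D, h, hI, v, hv => by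
    obtain ⟨h1, h3, _, h5⟩ := h
    rcases List.mem_cons.1 hv with rfl | hv2
    · intro hpJ h6
      have := hI _ h3 hpJ
      rw [h6] at this
      exact h1 this
    · refine chain_pp h5 ?_ v hv2
      intro u hu huJ
      rcases Finset.mem_insert.1 hu with rfl | hu2
      · exact Finset.mem_insert_of_mem h3
      · exact Finset.mem_insert_of_mem (hI u hu2 huJ)

lemma mem_nb_tI (hJW : J ⊆ W) {u z : α} :
    z ∈ nb (tI F W J) u ↔ F.Adj u z ∧ u ∈ W ∧ z ∈ W ∧ (u ∈ J ∨ z ∈ J) := by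
  rw [mem_nb, mem_tI_pair hJW]

lemma dd_of_mem (hJW : J ⊆ W) {u : α} (hu : u ∈ J) : dd F W J u = (nbW F W u).card := by
  unfold dd
  congr 1
  ext z
  rw [mem_nb_tI hJW, mem_nbW]
  constructor
  · rintro ⟨h1, _, h3, _⟩
    exact ⟨h3, h1⟩
  · rintro ⟨h1, h2⟩
    exact ⟨h2, hJW hu, h1, Or.inl hu⟩

lemma sum_dd_le : ∑ u ∈ W, dd F W J u ≤ 2 * (tI F W J).card :=
  sum_card_nb_le _ W

/-- The number of hubs. -/
lemma hubs_count (hJW : J ⊆ W) (hdeg : ∀ u ∈ J, 2 ≤ (nbW F W u).card) {D0 : ℕ} (hD0 : 2 ≤ D0) :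
    (D0 - 2) * (hubs F W J D0).card + 2 * J.card ≤ 2 * (tI F W J).card := by
  have h1 : ∀ u ∈ W, (if u ∈ hubs F W J D0 then D0 - 2 else 0) + (if u ∈ J then 2 else 0) ≤
      dd F W J u := by
    intro u hu
    by_cases h2 : u ∈ hubs F W J D0
    · have h3 : D0 ≤ dd F W J u := (Finset.mem_filter.1 h2).2
      by_cases h4 : u ∈ J
      · simp only [h2, h4, if_true]
        omega
      · simp only [h2, h4, if_true, if_false]
        omega
    · by_cases h4 : u ∈ J
      · have h5 := hdeg u h4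
        rw [← dd_of_mem hJW h4] at h5
        simp only [h2, h4, if_true, if_false]
        omega
      · simp only [h2, h4, if_false]
        omega
  have h2 := Finset.sum_le_sum h1
  have hsubh : hubs F W J D0 ⊆ W := Finset.filter_subset _ _
  rw [Finset.sum_add_distrib, Finset.sum_ite_mem, Finset.sum_ite_mem,
    Finset.inter_eq_right.2 hsubh, Finset.inter_eq_right.2 hJW,
    Finset.sum_const, Finset.sum_const, smul_eq_mul, smul_eq_mul] at h2
  have h3 := sum_dd_le (F := F) (W := W) (J := J)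
  have h4 : (hubs F W J D0).card * (D0 - 2) = (D0 - 2) * (hubs F W J D0).card := mul_comm _ _
  have h5 : J.card * 2 = 2 * J.card := mul_comm _ _
  omega

/-- The number of vertices at levels which are not thin. -/
lemma thick_count (hJW : J ⊆ W) (hdeg : ∀ u ∈ J, 2 ≤ (nbW F W u).card) {par : α → α}
    (hpar : ∀ u ∈ J, F.Adj (par u) u ∧ par u ∈ W)
    (hpp : ∀ v ∈ J, par v ∈ J → par (par v) ≠ v) :
    (J.filter (fun v => ¬ thin F W J par v)).card + 4 * J.card ≤ 4 * (tI F W J).card := by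
  set B := J.filter (fun v => ¬ thin F W J par v) with hB
  have hBJ : B ⊆ J := Finset.filter_subset _ _
  have hmaps : ∀ v ∈ B, par v ∈ W := fun v hv => (hpar v (hBJ hv)).2
  have hfib : B.card = ∑ u ∈ W, (B.filter (fun v => par v = u)).card :=
    Finset.card_eq_sum_card_fiberwise hmaps
  have h1 : ∀ u ∈ W, (B.filter (fun v => par v = u)).card + (if u ∈ J then 4 else 0) ≤
      2 * dd F W J u := by
    intro u hu
    by_cases huJ : u ∈ J
    · simp only [huJ, if_true]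
      have hd := hdeg u huJ
      rw [dd_of_mem hJW huJ]
      by_cases h2 : (nbW F W u).card = 2
      · have h3 : B.filter (fun v => par v = u) = ∅ := by
          rw [Finset.filter_eq_empty_iff]
          intro v hv h4
          have h5 := (Finset.mem_filter.1 hv).2
          apply h5
          exact ⟨h4 ▸ huJ, h4 ▸ h2⟩
        rw [h3, h2]
        simp
      · have hsub : insert (par u) (B.filter (fun v => par v = u)) ⊆ nbW F W u := by
          intro w hw
          rcases Finset.mem_insert.1 hw with rfl | hw2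
          · exact mem_nbW.2 ⟨(hpar u huJ).2, (hpar u huJ).1.symm⟩
          · obtain ⟨h3, h4⟩ := Finset.mem_filter.1 hw2
            have h5 := (hpar w (hBJ h3)).1
            rw [h4] at h5
            exact mem_nbW.2 ⟨hJW (hBJ h3), h5⟩
        have hnot : par u ∉ B.filter (fun v => par v = u) := by
          intro h3
          obtain ⟨h4, h5⟩ := Finset.mem_filter.1 h3
          exact hpp u huJ (hBJ h4) h5
        have h3 := Finset.card_le_card hsub
        rw [Finset.card_insert_of_notMem hnot] at h3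
        omega
    · simp only [huJ, if_false]
      have hsub : B.filter (fun v => par v = u) ⊆ nb (tI F W J) u := by
        intro w hw
        obtain ⟨h3, h4⟩ := Finset.mem_filter.1 hw
        have h5 := (hpar w (hBJ h3)).1
        rw [h4] at h5
        exact (mem_nb_tI hJW).2 ⟨h5, hu, hJW (hBJ h3), Or.inr (hBJ h3)⟩
      have h3 := Finset.card_le_card hsub
      have h4 : (nb (tI F W J) u).card = dd F W J u := rfl
      omega
  have h2 := Finset.sum_le_sum h1
  rw [Finset.sum_add_distrib, ← hfib, Finset.sum_ite_mem, Finset.inter_eq_right.2 hJW,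
    Finset.sum_const, smul_eq_mul, ← Finset.mul_sum] at h2
  have h3 := sum_dd_le (F := F) (W := W) (J := J)
  omega

/-- The main inequality for a subfamily with a small potential. -/
lemma star_ineq (hP : Pin n q F H W J S φ₁) (hG : GoodDensity n q H) (hq1 : q ≤ 1)
    {φ₀ : α → V} (hφ₀ : φ₀ ∈ S) {T : Finset (α → V)} (hTS : T ⊆ S) {M : ℕ}
    (hpot : pot n q F W J φ₁ T * ((n : ℝ) * (Real.exp 1 * q)) ^ M ≤ pot n q F W J φ₁ {φ₀}) :
    ((UU F W J T).card : ℝ) + M * (1 + Real.log ((n : ℝ) * q)) ≤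
      ((roots F W J φ₁).card : ℝ) * Real.log n := by
  have hn1 : (1 : ℝ) ≤ n := by exact_mod_cast hP.n1
  have hn0 : (0 : ℝ) < n := by linarith
  have hq0 := hP.q0
  have hgpos : 0 < (n : ℝ) * (Real.exp 1 * q) := by positivity
  have hlogg : Real.log ((n : ℝ) * (Real.exp 1 * q)) = 1 + Real.log ((n : ℝ) * q) := by
    have : (n : ℝ) * (Real.exp 1 * q) = Real.exp 1 * ((n : ℝ) * q) := by ring
    rw [this, Real.log_mul (Real.exp_pos _).ne' (by positivity), Real.log_exp]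
  have h1 : pot n q F W J φ₁ ({φ₀} : Finset (α → V)) ≤ (n : ℝ) ^ (roots F W J φ₁).card :=
    potential hP (Finset.singleton_subset_iff.2 hφ₀)
  have h2 := density_UU hP hG hq1 hTS
  have h3 : Real.exp ((UU F W J T).card : ℝ) ≤ pot n q F W J φ₁ T := by
    unfold pot
    rw [mul_pow, mul_left_comm]
    have h4 : Real.exp ((UU F W J T).card : ℝ) = Real.exp 1 ^ (UU F W J T).card := by
      rw [← Real.exp_nat_mul]
      simp
    rw [h4]
    exact le_mul_of_one_le_right (by positivity) h2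
  have h4 : Real.exp ((UU F W J T).card : ℝ) * ((n : ℝ) * (Real.exp 1 * q)) ^ M ≤
      (n : ℝ) ^ (roots F W J φ₁).card :=
    (mul_le_mul_of_nonneg_right h3 (by positivity)).trans (hpot.trans h1)
  have h5 := Real.log_le_log (by positivity) h4
  rw [Real.log_mul (Real.exp_pos _).ne' (by positivity), Real.log_exp, Real.log_pow,
    Real.log_pow, hlogg] at h5
  exact h5

/-- The number of levels with a hub as parent. -/
lemma hub_levels (hP : Pin n q F H W J S φ₁) (hG : GoodDensity n q H) (hq1 : q ≤ 1)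
    (hD : 1 ≤ (n : ℝ) * q) (hQ : Real.log n / 2 ≤ - Real.log q) {φ₀ : α → V} (hφ₀ : φ₀ ∈ S)
    {D0 : ℕ} {par : α → α} {r : List α} (hrJ : r.toFinset = J)
    (hcount : (r.toFinset.filter (fun v => par v ∈ hubs F W J D0 ∧ v ∉ hubs F W J D0)).card ≤
      ((CL F W J D0).filter (fun Z => Disjoint Z (W \ J))).card)
    {B2 : Finset α} (hB2J : B2 ⊆ J) (hB2Sh : ∀ v ∈ B2, par v ∈ hubs F W J D0) :
    (B2.card : ℝ) ≤ (1 + 2 * (1 + Real.log ((n : ℝ) * q))) * (hubs F W J D0).card := by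
  have hq0 := hP.q0
  have hn1 : (1 : ℝ) ≤ n := by exact_mod_cast hP.n1
  have hg : 0 ≤ Real.log ((n : ℝ) * q) := Real.log_nonneg hD
  have hQ1 : 0 < - Real.log q := by
    have h1 : Real.log (Real.exp 1 * q) ≤ 0 :=
      Real.log_nonpos (by positivity) hP.qe
    rw [Real.log_mul (Real.exp_pos _).ne' hq0.ne', Real.log_exp] at h1
    linarith
  have hb := CL_budget hP hG hq1 hD hφ₀ D0
  generalize hGdef : 1 + Real.log ((n : ℝ) * q) = G at hb ⊢
  have hG0 : 0 < G := by linarith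
  generalize hShc : ((hubs F W J D0).card : ℝ) = c at hb ⊢
  have hc0 : 0 ≤ c := by
    rw [← hShc]
    exact Nat.cast_nonneg _
  have hCL : ((CL F W J D0).card : ℝ) ≤ 2 * G * c := by
    have h2 : ((CL F W J D0).card : ℝ) * (- Real.log q) ≤ c * Real.log n * G := by
      have h3 : ((CL F W J D0).card : ℝ) * (- Real.log q / G) * G ≤ c * Real.log n * G :=
        mul_le_mul_of_nonneg_right hb hG0.le
      have h4 : ((CL F W J D0).card : ℝ) * (- Real.log q / G) * G =
          ((CL F W J D0).card : ℝ) * (- Real.log q) := by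
        field_simp
      rwa [h4] at h3
    have h3 : c * Real.log n * G ≤ 2 * G * c * (- Real.log q) := by
      have h4 : Real.log n ≤ 2 * (- Real.log q) := by linarith
      have h5 : 0 ≤ c * G := by positivity
      nlinarith
    exact le_of_mul_le_mul_right (h2.trans h3) hQ1
  have h1 : B2 ⊆ hubs F W J D0 ∪ r.toFinset.filter
      (fun v => par v ∈ hubs F W J D0 ∧ v ∉ hubs F W J D0) := by
    intro v hv
    by_cases h4 : v ∈ hubs F W J D0
    · exact Finset.mem_union_left _ h4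
    · refine Finset.mem_union_right _ (Finset.mem_filter.2 ⟨?_, hB2Sh v hv, h4⟩)
      rw [hrJ]
      exact hB2J hv
  have h2 : B2.card ≤ (hubs F W J D0).card + (CL F W J D0).card := by
    refine (Finset.card_le_card h1).trans ((Finset.card_union_le _ _).trans ?_)
    have h3 : ((CL F W J D0).filter (fun Z => Disjoint Z (W \ J))).card ≤
        (CL F W J D0).card := Finset.card_filter_le _ _
    omega
  have h3 : (B2.card : ℝ) ≤ ((hubs F W J D0).card : ℝ) + (CL F W J D0).card := by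
    exact_mod_cast h2
  rw [hShc] at h3
  nlinarith

/-- The product over levels with a hub as parent. -/
lemma prod_hub_le {U : Finset (Sym2 V)} {φ₀ : α → V} {par : α → α} {Lam : ℝ} {B2 : Finset α}
    (hUS : U ⊆ UU F W J S) (hΔ : ∀ z, ((nb (UU F W J S) z).card : ℝ) ≤ Real.exp Lam) :
    ∏ v ∈ B2, ((nb U (φ₀ (par v))).card : ℝ) ≤ Real.exp ((B2.card : ℝ) * Lam) := by
  have h1 : ∀ v ∈ B2, ((nb U (φ₀ (par v))).card : ℝ) ≤ Real.exp Lam := by
    intro v _
    have hsub : nb U (φ₀ (par v)) ⊆ nb (UU F W J S) (φ₀ (par v)) := by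
      intro z hz
      exact mem_nb.2 (hUS (mem_nb.1 hz))
    have h2 : ((nb U (φ₀ (par v))).card : ℝ) ≤ ((nb (UU F W J S) (φ₀ (par v))).card : ℝ) := by
      exact_mod_cast Finset.card_le_card hsub
    exact h2.trans (hΔ _)
  have h2 : ∏ v ∈ B2, ((nb U (φ₀ (par v))).card : ℝ) ≤ ∏ _v ∈ B2, Real.exp Lam :=
    Finset.prod_le_prod (fun v _ => Nat.cast_nonneg _) h1
  refine h2.trans ?_
  rw [Finset.prod_const, ← Real.exp_nat_mul]

/-- The sum over levels whose parent is not a hub. -/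
lemma sum_nonhub_le {U : Finset (Sym2 V)} {φ₀ : α → V} (hinj : Function.Injective φ₀)
    (hJW : J ⊆ W) {par : α → α} (hpar : ∀ u ∈ J, F.Adj (par u) u ∧ par u ∈ W) {D0 : ℕ}
    {B1 : Finset α} (hB1J : B1 ⊆ J) (hB1Sh : ∀ v ∈ B1, par v ∉ hubs F W J D0) :
    ∑ v ∈ B1, ((nb U (φ₀ (par v))).card : ℝ) ≤ (D0 : ℝ) * (2 * U.card) := by
  set x : α → ℝ := fun u => ((nb U (φ₀ u)).card : ℝ) with hx
  have hx0 : ∀ u, 0 ≤ x u := fun u => Nat.cast_nonneg _
  have hD00 : (0 : ℝ) ≤ D0 := Nat.cast_nonneg _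
  have hmaps : ∀ v ∈ B1, par v ∈ W := fun v hv => (hpar v (hB1J hv)).2
  have h1 : ∑ v ∈ B1, x (par v) = ∑ u ∈ W, ∑ v ∈ B1.filter (fun v => par v = u), x (par v) :=
    (Finset.sum_fiberwise_of_maps_to hmaps _).symm
  have h2 : ∀ u ∈ W, ∑ v ∈ B1.filter (fun v => par v = u), x (par v) ≤ (D0 : ℝ) * x u := by
    intro u hu
    have h3 : ∑ v ∈ B1.filter (fun v => par v = u), x (par v) =
        ∑ _v ∈ B1.filter (fun v => par v = u), x u := by
      apply Finset.sum_congr rfl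
      intro v hv
      rw [(Finset.mem_filter.1 hv).2]
    rw [h3, Finset.sum_const, nsmul_eq_mul]
    apply mul_le_mul_of_nonneg_right _ (hx0 u)
    by_cases hSh' : u ∈ hubs F W J D0
    · have h4 : B1.filter (fun v => par v = u) = ∅ := by
        rw [Finset.filter_eq_empty_iff]
        intro v hv h5
        exact hB1Sh v hv (h5 ▸ hSh')
      rw [h4]
      simpa using hD00
    · have h4 : ¬ D0 ≤ dd F W J u := fun h => hSh' (Finset.mem_filter.2 ⟨hu, h⟩)
      have hsub : B1.filter (fun v => par v = u) ⊆ nb (tI F W J) u := by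
        intro w hw
        obtain ⟨h5, h6⟩ := Finset.mem_filter.1 hw
        have h7 := (hpar w (hB1J h5)).1
        rw [h6] at h7
        exact (mem_nb_tI hJW).2 ⟨h7, hu, hJW (hB1J h5), Or.inr (hB1J h5)⟩
      have h5 := Finset.card_le_card hsub
      have h6 : (nb (tI F W J) u).card = dd F W J u := rfl
      have h7 : (B1.filter (fun v => par v = u)).card ≤ D0 := by omega
      exact_mod_cast h7
  rw [h1]
  refine (Finset.sum_le_sum h2).trans ?_
  rw [← Finset.mul_sum]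
  apply mul_le_mul_of_nonneg_left _ hD00
  have h3 : ∑ u ∈ W, x u = ∑ z ∈ W.image φ₀, ((nb U z).card : ℝ) := by
    rw [Finset.sum_image (fun a _ b _ h => hinj h)]
  rw [h3]
  have h4 := sum_card_nb_le U (W.image φ₀)
  exact_mod_cast h4

/-- A product is at most a power times an exponential. -/
lemma prod_le_pow_exp {ι : Type} (B : Finset ι) (x : ι → ℝ) (hx0 : ∀ i, 0 ≤ x i) {s : ℝ}
    (hs0 : 0 < s) : ∏ i ∈ B, x i ≤ s ^ B.card * Real.exp ((∑ i ∈ B, x i) / s) := by
  have h1 : ∀ i ∈ B, x i ≤ s * Real.exp (x i / s) := by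
    intro i _
    have h2 := Real.add_one_le_exp (x i / s)
    have h3 : x i = s * (x i / s) := by field_simp
    calc x i = s * (x i / s) := h3
      _ ≤ s * Real.exp (x i / s) := mul_le_mul_of_nonneg_left (by linarith) hs0.le
  have h2 : ∏ i ∈ B, x i ≤ ∏ i ∈ B, (s * Real.exp (x i / s)) :=
    Finset.prod_le_prod (fun i _ => hx0 i) h1
  refine h2.trans ?_
  rw [Finset.prod_mul_distrib, Finset.prod_const, ← Real.exp_sum, ← Finset.sum_div]

/-- The numerics of the product along one member. -/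
lemma mp_num {R L G M Ul B2c c X Lam D0 : ℝ} (hG0 : 0 < G) (hM0 : 0 ≤ M) (hU0 : 0 ≤ Ul)
    (hR0 : 0 ≤ R) (hL0 : 0 ≤ L) (hD0 : 2 ≤ D0) (hLam0 : 0 ≤ Lam) (hc0 : 0 ≤ c)
    (hstar : Ul + M * G ≤ R * L) (hB2 : B2c ≤ (1 + 2 * G) * c)
    (hLam : (1 + 2 * G) * Lam ≤ D0 - 2) (hShc : (D0 - 2) * c ≤ 2 * X) :
    M ≤ R * L / G ∧ B2c * Lam ≤ 2 * X ∧ (D0 * (2 * Ul)) / (D0 * (L + 1)) ≤ 2 * R := by
  refine ⟨?_, ?_, ?_⟩
  · rw [le_div_iff₀ hG0]
    nlinarith [mul_nonneg hU0 hG0.le]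
  · have h3 : B2c * Lam ≤ (1 + 2 * G) * c * Lam := mul_le_mul_of_nonneg_right hB2 hLam0
    have h4 : (1 + 2 * G) * Lam * c ≤ (D0 - 2) * c := mul_le_mul_of_nonneg_right hLam hc0
    nlinarith
  · have hD1 : 0 < D0 := by linarith
    have hL1 : 0 < L + 1 := by linarith
    rw [div_le_iff₀ (by positivity)]
    have hUL : Ul ≤ R * (L + 1) := by nlinarith [mul_nonneg hM0 hG0.le]
    nlinarith [mul_le_mul_of_nonneg_left hUL hD1.le]

/-- The product over the levels which are not thin. -/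
lemma prod_B_bound (hP : Pin n q F H W J S φ₁) (hG : GoodDensity n q H) (hq1 : q ≤ 1)
    (hD : 1 ≤ (n : ℝ) * q) (hQ : Real.log n / 2 ≤ - Real.log q)
    {D0 : ℕ} (hD0 : 2 ≤ D0) {Lam : ℝ} (hLam0 : 0 ≤ Lam)
    (hLam : (1 + 2 * (1 + Real.log ((n : ℝ) * q))) * Lam ≤ (D0 : ℝ) - 2)
    (hΔ : ∀ z, ((nb (UU F W J S) z).card : ℝ) ≤ Real.exp Lam)
    {X : ℕ} (hShc : ((D0 : ℝ) - 2) * (hubs F W J D0).card ≤ 2 * X)
    {par : α → α} {r : List α} (hrJ : r.toFinset = J)
    (hpar : ∀ u ∈ J, F.Adj (par u) u ∧ par u ∈ W)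
    (hcount : (r.toFinset.filter (fun v => par v ∈ hubs F W J D0 ∧ v ∉ hubs F W J D0)).card ≤
      ((CL F W J D0).filter (fun Z => Disjoint Z (W \ J))).card)
    {φ₀ : α → V} (hφ₀ : φ₀ ∈ S) {T : Finset (α → V)} (hTS : T ⊆ S) {M : ℝ} (hM0 : 0 ≤ M)
    (hstar : ((UU F W J T).card : ℝ) + M * (1 + Real.log ((n : ℝ) * q)) ≤
      ((roots F W J φ₁).card : ℝ) * Real.log n)
    {B : Finset α} (hBJ : B ⊆ J) (hBc : B.card ≤ 4 * X) :
    ∏ v ∈ B, ((nb (UU F W J T) (φ₀ (par v))).card : ℝ) ≤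
      ((D0 : ℝ) * (Real.log n + 1)) ^ (4 * X) * Real.exp (2 * ((roots F W J φ₁).card : ℝ)) *
        Real.exp (2 * X) := by
  have hn1 : (1 : ℝ) ≤ n := by exact_mod_cast hP.n1
  have hL0 : 0 ≤ Real.log n := Real.log_nonneg hn1
  have hg : 0 ≤ Real.log ((n : ℝ) * q) := Real.log_nonneg hD
  have hJW := hP.hJW
  have hD0r : (2 : ℝ) ≤ D0 := by exact_mod_cast hD0
  have hinj := hP.inj φ₀ hφ₀
  rw [← Finset.prod_filter_mul_prod_filter_not B (fun v => par v ∉ hubs F W J D0)]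
  have hB2J : B.filter (fun v => ¬ par v ∉ hubs F W J D0) ⊆ J :=
    (Finset.filter_subset _ _).trans hBJ
  have hB1J : B.filter (fun v => par v ∉ hubs F W J D0) ⊆ J :=
    (Finset.filter_subset _ _).trans hBJ
  have hB2 := hub_levels hP hG hq1 hD hQ hφ₀ (par := par) hrJ hcount hB2J (fun v hv => by
    have := (Finset.mem_filter.1 hv).2
    exact not_not.1 this)
  have hprod2 := prod_hub_le (F := F) (W := W) (J := J) (S := S) (φ₀ := φ₀) (par := par)
    (B2 := B.filter (fun v => ¬ par v ∉ hubs F W J D0)) (UU_mono hTS) hΔ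
  have hsum1 := sum_nonhub_le (U := UU F W J T) hinj hJW hpar hB1J
    (fun v hv => (Finset.mem_filter.1 hv).2)
  have hs0 : 0 < (D0 : ℝ) * (Real.log n + 1) := by positivity
  have hs1 : 1 ≤ (D0 : ℝ) * (Real.log n + 1) := by nlinarith
  have hprod1 := prod_le_pow_exp (B.filter (fun v => par v ∉ hubs F W J D0))
    (fun v => ((nb (UU F W J T) (φ₀ (par v))).card : ℝ)) (fun _ => Nat.cast_nonneg _) hs0
  obtain ⟨_, hnum2, hnum3⟩ := mp_num (R := ((roots F W J φ₁).card : ℝ)) (L := Real.log n)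
    (G := 1 + Real.log ((n : ℝ) * q)) (M := M) (Ul := ((UU F W J T).card : ℝ))
    (B2c := ((B.filter (fun v => ¬ par v ∉ hubs F W J D0)).card : ℝ))
    (c := ((hubs F W J D0).card : ℝ)) (X := (X : ℝ)) (Lam := Lam) (D0 := (D0 : ℝ))
    (by linarith) hM0 (Nat.cast_nonneg _) (Nat.cast_nonneg _) hL0 hD0r hLam0
    (Nat.cast_nonneg _) hstar hB2 hLam hShc
  have hc1 : (B.filter (fun v => par v ∉ hubs F W J D0)).card ≤ 4 * X :=
    (Finset.card_filter_le _ _).trans hBc
  have hP1 : ∏ v ∈ B.filter (fun v => par v ∉ hubs F W J D0),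
      ((nb (UU F W J T) (φ₀ (par v))).card : ℝ) ≤
      ((D0 : ℝ) * (Real.log n + 1)) ^ (4 * X) * Real.exp (2 * ((roots F W J φ₁).card : ℝ)) := by
    refine hprod1.trans ?_
    apply mul_le_mul (pow_le_pow_right₀ hs1 hc1) _ (Real.exp_pos _).le (pow_nonneg hs0.le _)
    apply Real.exp_le_exp.2
    exact (div_le_div_of_nonneg_right hsum1 hs0.le).trans hnum3
  have hP2 : ∏ v ∈ B.filter (fun v => ¬ par v ∉ hubs F W J D0),
      ((nb (UU F W J T) (φ₀ (par v))).card : ℝ) ≤ Real.exp (2 * X) :=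
    hprod2.trans (Real.exp_le_exp.2 hnum2)
  have hp1 : 0 ≤ ∏ v ∈ B.filter (fun v => ¬ par v ∉ hubs F W J D0),
      ((nb (UU F W J T) (φ₀ (par v))).card : ℝ) := Finset.prod_nonneg (fun _ _ => Nat.cast_nonneg _)
  exact mul_le_mul hP1 hP2 hp1 (mul_nonneg (pow_nonneg hs0.le _) (Real.exp_pos _).le)

/-- Combination of three bounds. -/
lemma combo {a b A B1 C D : ℝ} (ha : a ≤ Real.exp A) (hb : b ≤ B1 * Real.exp C * Real.exp D)
    (ha0 : 0 ≤ a) (hb0 : 0 ≤ b) (hB : 0 ≤ B1) :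
    a * b ≤ Real.exp (A + C + D) * B1 := by
  have h1 : Real.exp (A + C + D) * B1 = Real.exp A * (B1 * Real.exp C * Real.exp D) := by
    rw [Real.exp_add, Real.exp_add]
    ring
  rw [h1]
  exact mul_le_mul ha hb hb0 (Real.exp_pos _).le

/-- The bound along one member. -/
lemma mp_bound (hP : Pin n q F H W J S φ₁) (hG : GoodDensity n q H) (hq1 : q ≤ 1)
    (hD : 1 ≤ (n : ℝ) * q) (hQ : Real.log n / 2 ≤ - Real.log q)
    (hdeg : ∀ u ∈ J, 2 ≤ (nbW F W u).card)
    {D0 : ℕ} (hD0 : 2 ≤ D0) {Lam : ℝ} (hLam0 : 0 ≤ Lam)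
    (hLam : (1 + 2 * (1 + Real.log ((n : ℝ) * q))) * Lam ≤ (D0 : ℝ) - 2)
    (hΔ : ∀ z, ((nb (UU F W J S) z).card : ℝ) ≤ Real.exp Lam)
    {X : ℕ} (hX : (tI F W J).card = J.card + X)
    {par : α → α} {r : List α} (hC : Chain F par (W \ J) r) (hnd : r.Nodup)
    (hrJ : r.toFinset = J) (hpar : ∀ u ∈ J, F.Adj (par u) u ∧ par u ∈ W)
    (hpp : ∀ v ∈ J, par v ∈ J → par (par v) ≠ v)
    (hcount : (r.toFinset.filter (fun v => par v ∈ hubs F W J D0 ∧ v ∉ hubs F W J D0)).card ≤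
      ((CL F W J D0).filter (fun Z => Disjoint Z (W \ J))).card)
    {φ₀ : α → V} (hφ₀ : φ₀ ∈ S) :
    mp S φ₀ r (W \ J) ≤
      Real.exp (((roots F W J φ₁).card : ℝ) * Real.log n / (1 + Real.log ((n : ℝ) * q)) +
        2 * ((roots F W J φ₁).card : ℝ) + 2 * X) *
        ((D0 : ℝ) * (Real.log n + 1)) ^ (4 * X) := by
  have hn1 : (1 : ℝ) ≤ n := by exact_mod_cast hP.n1
  have hL0 : 0 ≤ Real.log n := Real.log_nonneg hn1
  have hg : 0 ≤ Real.log ((n : ℝ) * q) := Real.log_nonneg hD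
  have hJW := hP.hJW
  have hD0r : (2 : ℝ) ≤ D0 := by exact_mod_cast hD0
  have hDJ : ∀ u ∈ W \ J, u ∉ J := fun u hu => (Finset.mem_sdiff.1 hu).2
  have hI : ∀ u ∈ W \ J, u ∈ J → par u ∈ W \ J := fun u hu hu2 => absurd hu2 (hDJ u hu)
  have hrmem : ∀ v ∈ r, v ∈ J := by
    intro v hv
    rw [← hrJ]
    exact List.mem_toFinset.2 hv
  obtain ⟨T, hT, hφT, hpot, hwit⟩ := build hP hφ₀ r (W \ J) hC hI hpar hrmem
    (fun u hu => (Finset.mem_sdiff.1 hu).1)
  have hTS : T ⊆ S := hT.trans (Finset.filter_subset _ _)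
  have hstar := star_ineq hP hG hq1 hφ₀ hTS hpot
  have hφsib : ∀ D' : Finset α, φ₀ ∈ sib S D' φ₀ := fun D' => mem_sib.2 ⟨hφ₀, fun _ _ => rfl⟩
  have hmp := mp_le (F := F) (W := W) (J := J) (S := S) par r (W \ J) hwit hφsib
  refine hmp.trans ?_
  have hlist : ((r.filter (fun v => ¬ thin F W J par v)).map
      (fun v => ((nb (UU F W J T) (φ₀ (par v))).card : ℝ))).prod =
      ∏ v ∈ J.filter (fun v => ¬ thin F W J par v), ((nb (UU F W J T) (φ₀ (par v))).card : ℝ) := by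
    rw [← List.prod_toFinset _ (hnd.filter _), List.toFinset_filter, hrJ]
    refine Finset.prod_congr ?_ (fun _ _ => rfl)
    ext y
    simp only [Finset.mem_filter, decide_eq_true_eq]
  rw [hlist]
  have hthick := thick_count hJW hdeg hpar hpp
  have hBJ : J.filter (fun v => ¬ thin F W J par v) ⊆ J := Finset.filter_subset _ _
  have hBc : (J.filter (fun v => ¬ thin F W J par v)).card ≤ 4 * X := by
    rw [hX] at hthick
    omega
  have hShc : ((D0 : ℝ) - 2) * (hubs F W J D0).card ≤ 2 * X := by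
    have h1 := hubs_count hJW hdeg hD0
    rw [hX] at h1
    have h2 : (D0 - 2) * (hubs F W J D0).card ≤ 2 * X := by linarith
    have h3 : ((D0 - 2 : ℕ) : ℝ) = (D0 : ℝ) - 2 := by
      rw [Nat.cast_sub hD0]
      norm_num
    rw [← h3]
    exact_mod_cast h2
  have hB := prod_B_bound hP hG hq1 hD hQ hD0 hLam0 hLam hΔ hShc hrJ hpar hcount hφ₀ hTS
    (Nat.cast_nonneg _) hstar hBJ hBc
  obtain ⟨hnum1, _, _⟩ := mp_num (R := ((roots F W J φ₁).card : ℝ)) (L := Real.log n)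
    (G := 1 + Real.log ((n : ℝ) * q)) (M := ((marks F W J par S φ₀ r (W \ J) : ℕ) : ℝ))
    (Ul := ((UU F W J T).card : ℝ)) (B2c := 0) (c := 0) (X := (X : ℝ)) (Lam := Lam)
    (D0 := (D0 : ℝ)) (by linarith) (Nat.cast_nonneg _) (Nat.cast_nonneg _) (Nat.cast_nonneg _)
    hL0 hD0r hLam0 le_rfl hstar (by simp) hLam (by simpa using Nat.cast_nonneg X)
  refine combo (Real.exp_le_exp.2 hnum1 |>.trans_eq' rfl) hB ?_ ?_ ?_
  · exact (Real.exp_pos _).le
  · exact Finset.prod_nonneg (fun _ _ => Nat.cast_nonneg _)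
  · exact pow_nonneg (mul_nonneg (by linarith) (by linarith)) _

/-- The pinned bound. -/
theorem pinned_v (hP : Pin n q F H W J S φ₁) (hG : GoodDensity n q H) (hq1 : q ≤ 1)
    (hD : 1 ≤ (n : ℝ) * q) (hQ : Real.log n / 2 ≤ - Real.log q)
    (hdeg : ∀ u ∈ J, 2 ≤ (nbW F W u).card)
    (hconn : ∀ D : Finset α, W \ J ⊆ D → D ⊆ W → D ≠ W → ∃ u ∈ D, ∃ v ∈ W \ D, F.Adj u v)
    {D0 : ℕ} (hD0 : 2 ≤ D0) {Lam : ℝ} (hLam0 : 0 ≤ Lam)
    (hLam : (1 + 2 * (1 + Real.log ((n : ℝ) * q))) * Lam ≤ (D0 : ℝ) - 2)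
    (hΔ : ∀ z, ((nb (UU F W J S) z).card : ℝ) ≤ Real.exp Lam)
    {X : ℕ} (hX : (tI F W J).card = J.card + X) :
    ((S.image (proj W)).card : ℝ) ≤
      Real.exp (((roots F W J φ₁).card : ℝ) * Real.log n / (1 + Real.log ((n : ℝ) * q)) +
        2 * ((roots F W J φ₁).card : ℝ) + 2 * X) *
        ((D0 : ℝ) * (Real.log n + 1)) ^ (4 * X) := by
  have hJW := hP.hJW
  obtain ⟨par, r, _, hC, hnd, hun, hcount⟩ := chain_hub (D0 := D0) hconn hJW _ (W \ J) rfl
    subset_rfl Finset.sdiff_subset id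
  have hDJ : ∀ u ∈ W \ J, u ∉ J := fun u hu => (Finset.mem_sdiff.1 hu).2
  have hrJ : r.toFinset = J := by
    ext y
    rw [List.mem_toFinset]
    constructor
    · intro hy
      have h1 : y ∈ W := by
        rw [← hun]
        exact Finset.mem_union_right _ (List.mem_toFinset.2 hy)
      by_contra hyJ
      exact hC.not_mem y (Finset.mem_sdiff.2 ⟨h1, hyJ⟩) hy
    · intro hy
      have h1 : y ∈ (W \ J) ∪ r.toFinset := by
        rw [hun]
        exact hJW hy
      rcases Finset.mem_union.1 h1 with h2 | h2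
      · exact absurd hy (hDJ y h2)
      · exact List.mem_toFinset.1 h2
  have hpar : ∀ u ∈ J, F.Adj (par u) u ∧ par u ∈ W := by
    intro u hu
    have hur : u ∈ r := by
      rw [← List.mem_toFinset, hrJ]
      exact hu
    have h1 := chain_par hC u hur
    exact ⟨h1.1, hun ▸ h1.2⟩
  have hI : ∀ u ∈ W \ J, u ∈ J → par u ∈ W \ J := fun u hu hu2 => absurd hu2 (hDJ u hu)
  have hpp : ∀ v ∈ J, par v ∈ J → par (par v) ≠ v := by
    intro v hv
    have hvr : v ∈ r := by
      rw [← List.mem_toFinset, hrJ]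
      exact hv
    exact chain_pp hC hI v hvr
  have hsibS : sib S (W \ J) φ₁ = S := by
    ext σ
    rw [mem_sib]
    constructor
    · exact fun h => h.1
    · exact fun h => ⟨h, hP.agree σ h⟩
  have hB0 : 0 ≤ Real.exp (((roots F W J φ₁).card : ℝ) * Real.log n /
      (1 + Real.log ((n : ℝ) * q)) + 2 * ((roots F W J φ₁).card : ℝ) + 2 * X) *
      ((D0 : ℝ) * (Real.log n + 1)) ^ (4 * X) := by
    have hn1 : (1 : ℝ) ≤ n := by exact_mod_cast hP.n1
    have hL0 : 0 ≤ Real.log n := Real.log_nonneg hn1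
    have hD00 : (0 : ℝ) ≤ D0 := Nat.cast_nonneg _
    positivity
  have hmain := kraft (S := S) r (W \ J) φ₁ _ hB0 (fun φ₀ hφ₀' =>
    mp_bound hP hG hq1 hD hQ hdeg hD0 hLam0 hLam hΔ hX hC hnd hrJ hpar hpp hcount
      (mem_sib.1 hφ₀').1)
  rw [hun, hsibS] at hmain
  exact hmain

end Vale.Agent.Lib.P064V
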