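import Vale.Agent.Lib.P064V.Pinned2
import Vale.Agent.Lib.P064V.Num2
import Vale.Agent.Lib.P064S.Cycle
import Vale.Agent.Lib.P064S.Cover

/-!
The improved pinned bound for a minimal set.
-/

open Finset

namespace Vale.Agent.Lib.P064V

open Vale.Agent.Lib.P064 Vale.Agent.Lib.P064S
open scoped Classical

variable {V α : Type} [Fintype V] [Fintype α] {H : SimpleGraph V} {F : SimpleGraph α} {n : ℕ}
  {q : ℝ}

/-- The hub threshold. -/
noncomputable def spD0 (n : ℕ) (q : ℝ) : ℕ :=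
  ⌈(1 + 2 * (1 + Real.log ((n : ℝ) * q))) * spLam n q⌉₊ + 2

lemma seven_le_exp_two : (7 : ℝ) ≤ Real.exp 2 := by
  have h1 := Real.exp_one_gt_d9
  have h2 : Real.exp 2 = Real.exp 1 ^ 2 := by
    rw [← Real.exp_nat_mul]
    norm_num
  rw [h2]
  nlinarith

/-- The hub threshold is polylogarithmic. -/
lemma spD0_bound (hD : 1 ≤ (n : ℝ) * q) (hq1 : q ≤ 1) (hn : 1 ≤ n) :
    (spD0 n q : ℝ) * (Real.log n + 1) ≤ Real.exp (2 + 3 * Real.log (Real.log n + 2)) := by
  have hn1 : (1 : ℝ) ≤ n := by exact_mod_cast hn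
  have hn0 : (0 : ℝ) < n := by linarith
  have hL : 0 ≤ Real.log n := Real.log_nonneg hn1
  set L := Real.log n with hLdef
  have hg0 : 0 ≤ spG n q := spG_nonneg hD
  have hgL : spG n q ≤ L := by
    have h1 : (n : ℝ) * q ≤ n := by nlinarith
    exact Real.log_le_log (by linarith) h1
  have ht : Real.log (L + 2) ≤ L + 1 := by
    have := Real.log_le_sub_one_of_pos (show (0 : ℝ) < L + 2 by linarith)
    linarith
  have ht0 : 0 ≤ Real.log (L + 2) := Real.log_nonneg (by linarith)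
  have hA1 : (1 + 2 * (1 + Real.log ((n : ℝ) * q))) ≤ 2 * (L + 2) := by
    have : Real.log ((n : ℝ) * q) = spG n q := rfl
    rw [this]
    linarith
  have hA2 : spLam n q ≤ 2 * (L + 2) := by
    unfold spLam
    linarith
  have hLam0 : 0 ≤ spLam n q := spLam_nonneg hD hL
  have hA : (1 + 2 * (1 + Real.log ((n : ℝ) * q))) * spLam n q ≤ 2 * (L + 2) * (2 * (L + 2)) :=
    mul_le_mul hA1 hA2 hLam0 (by linarith)
  have hA0 : 0 ≤ (1 + 2 * (1 + Real.log ((n : ℝ) * q))) * spLam n q := by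
    have : Real.log ((n : ℝ) * q) = spG n q := rfl
    rw [this]
    positivity
  have hD0 : (spD0 n q : ℝ) ≤ 7 * (L + 2) ^ 2 := by
    unfold spD0
    push_cast
    have h1 := Nat.ceil_lt_add_one hA0
    nlinarith
  have hE : Real.exp (2 + 3 * Real.log (L + 2)) = Real.exp 2 * (L + 2) ^ 3 := by
    rw [Real.exp_add, show (3 : ℝ) * Real.log (L + 2) = ((3 : ℕ) : ℝ) * Real.log (L + 2) by norm_num,
      Real.exp_nat_mul, Real.exp_log (by linarith)]
  rw [hE]
  have h7 := seven_le_exp_two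
  have hL2 : 0 < L + 2 := by linarith
  calc (spD0 n q : ℝ) * (L + 1) ≤ (7 * (L + 2) ^ 2) * (L + 2) :=
        mul_le_mul hD0 (by linarith) (by linarith) (by positivity)
    _ = 7 * (L + 2) ^ 3 := by ring
    _ ≤ _ := mul_le_mul_of_nonneg_right h7 (by positivity)

private lemma newE_erase_subset' {E I : Finset α} {x : α} (hx : x ∈ I) :
    newE F (insert x E) (I.erase x) ⊆ newE F E I := by
  intro e he
  induction e using Sym2.ind with
  | _ u v =>
    obtain ⟨h1, h2, h3, h4⟩ := mem_newE_pair.1 he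
    refine mem_newE_pair.2 ⟨h1, ?_, ?_, ?_⟩
    · rcases h2 with h | h
      · rcases Finset.mem_insert.1 h with h | h
        · subst h; exact Or.inr hx
        · exact Or.inl h
      · exact Or.inr (Finset.mem_of_mem_erase h)
    · rcases h3 with h | h
      · rcases Finset.mem_insert.1 h with h | h
        · subst h; exact Or.inr hx
        · exact Or.inl h
      · exact Or.inr (Finset.mem_of_mem_erase h)
    · rintro ⟨h5, h6⟩
      exact h4 ⟨Finset.mem_insert_of_mem h5, Finset.mem_insert_of_mem h6⟩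

/-- The numerics of the pinned bound. -/
lemma pinned_num {r b X x : ℕ} {L G t B : ℝ} (hL : 0 ≤ L) (hG : 0 < G) (hr : r ≤ b + 1)
    (hX : X ≤ x + 1) (ht : 0 ≤ t) (hB0 : 0 ≤ B) (hB : B ≤ Real.exp (2 + 3 * t)) :
    Real.exp ((r : ℝ) * L / G + 2 * (r : ℝ) + 2 * X) * B ^ (4 * X) ≤
      Real.exp (((b : ℝ) + 1) * (L / G + 2) + ((x : ℝ) + 1) * (10 + 12 * t)) := by
  have h1 : B ^ (4 * X) ≤ Real.exp (2 + 3 * t) ^ (4 * X) := pow_le_pow_left₀ hB0 hB _
  have h2 : Real.exp (2 + 3 * t) ^ (4 * X) = Real.exp (((4 * X : ℕ) : ℝ) * (2 + 3 * t)) := by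
    rw [← Real.exp_nat_mul]
  rw [h2] at h1
  have h3 : Real.exp ((r : ℝ) * L / G + 2 * (r : ℝ) + 2 * X) * B ^ (4 * X) ≤
      Real.exp ((r : ℝ) * L / G + 2 * (r : ℝ) + 2 * X) *
        Real.exp (((4 * X : ℕ) : ℝ) * (2 + 3 * t)) :=
    mul_le_mul_of_nonneg_left h1 (Real.exp_pos _).le
  refine h3.trans ?_
  rw [← Real.exp_add]
  apply Real.exp_le_exp.2
  have hLG : 0 ≤ L / G := div_nonneg hL hG.le
  have hr' : (r : ℝ) ≤ (b : ℝ) + 1 := by exact_mod_cast hr
  have hX' : (X : ℝ) ≤ (x : ℝ) + 1 := by exact_mod_cast hX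
  have h4 : (r : ℝ) * L / G = (r : ℝ) * (L / G) := by ring
  rw [h4]
  push_cast
  have h5 : (r : ℝ) * (L / G + 2) ≤ ((b : ℝ) + 1) * (L / G + 2) :=
    mul_le_mul_of_nonneg_right hr' (by linarith)
  have h6 : (X : ℝ) * (10 + 12 * t) ≤ ((x : ℝ) + 1) * (10 + 12 * t) :=
    mul_le_mul_of_nonneg_right hX' (by linarith)
  nlinarith

/-- The improved pinned bound for a minimal set. -/
theorem sp_pinned2 (hG : GoodDensity n q H) (hn : 2 ≤ n) (hV : Fintype.card V ≤ n) (hq0 : 0 < q)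
    (hqe : q ≤ Real.exp (-1)) (hL : 0 ≤ Real.log n) (hD : 1 ≤ (n : ℝ) * q)
    (hQ : Real.log n / 2 ≤ - Real.log q)
    {E I : Finset α} (hdisj : Disjoint I E)
    (hconn : ∀ D : Finset α, D.Nonempty → D ⊆ I → D ≠ I → ∃ u ∈ D, ∃ v ∈ I \ D, F.Adj u v)
    (hmin : ∀ J ⊆ I, J.Nonempty → J ≠ I → Low n q F (E ∪ I) J)
    (hdeg : ∀ w ∈ I, 2 ≤ dW F (E ∪ I) w) {xI : ℕ} (hm : (newE F E I).card = I.card + xI)
    {S : Finset (α → V)} (hinj : ∀ φ ∈ S, Function.Injective φ)
    (hhom : ∀ φ ∈ S, ∀ u v, F.Adj u v → H.Adj (φ u) (φ v))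
    {φ₀ : α → V} (hagree : ∀ φ ∈ S, ∀ x ∈ E, φ x = φ₀ x) {x : α} (hx : x ∈ I) (y : V) :
    (((S.filter (fun φ => φ x = y)).image (proj (E ∪ I))).card : ℝ) ≤
      Real.exp ((((core F E I).card : ℝ) + 1) * (Real.log n / (1 + spG n q) + 2) +
        ((xI : ℝ) + 1) * (10 + 12 * Real.log (Real.log n + 2))) := by
  have hn' : 1 ≤ n := by omega
  have hq1 : q ≤ 1 := hqe.trans (by rw [Real.exp_le_one_iff]; norm_num)
  by_cases hS' : (S.filter (fun φ => φ x = y)).Nonempty
  swap
  · rw [Finset.not_nonempty_iff_eq_empty] at hS'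
    rw [hS']
    simp only [Finset.image_empty, Finset.card_empty, Nat.cast_zero]
    positivity
  obtain ⟨φ₁, hφ₁⟩ := hS'
  have hφ₁' := Finset.mem_filter.1 hφ₁
  have hinj' : ∀ φ ∈ S.filter (fun φ => φ x = y), Function.Injective φ :=
    fun φ hφ => hinj φ (Finset.mem_filter.1 hφ).1
  have hhom' : ∀ φ ∈ S.filter (fun φ => φ x = y), ∀ u v, F.Adj u v → H.Adj (φ u) (φ v) :=
    fun φ hφ => hhom φ (Finset.mem_filter.1 hφ).1
  have hag : ∀ φ ∈ S.filter (fun φ => φ x = y), ∀ y' ∈ insert x E, φ y' = φ₁ y' := by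
    intro φ hφ y' hy'
    have hφ' := Finset.mem_filter.1 hφ
    rcases Finset.mem_insert.1 hy' with rfl | hy''
    · rw [hφ'.2, hφ₁'.2]
    · rw [hagree φ hφ'.1 y' hy'', hagree φ₁ hφ₁'.1 y' hy'']
  have hJY : Disjoint (I.erase x) (insert x E) := by
    rw [Finset.disjoint_left]
    intro a ha hb
    rcases Finset.mem_insert.1 hb with rfl | h
    · exact (Finset.mem_erase.1 ha).1 rfl
    · exact Finset.disjoint_left.1 hdisj (Finset.mem_erase.1 ha).2 h
  have hWeq : insert x E ∪ I.erase x = E ∪ I := insert_union_erase hx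
  have hlow : ∀ J' ⊆ I.erase x, J'.Nonempty → Low n q F (insert x E ∪ I.erase x) J' := by
    intro J' hJ' hne
    rw [hWeq]
    refine hmin J' (hJ'.trans (Finset.erase_subset _ _)) hne ?_
    intro h
    have h2 := hJ' (h ▸ hx)
    exact (Finset.mem_erase.1 h2).1 rfl
  have hdeg' : ∀ w ∈ I.erase x, 2 ≤ dW F (insert x E ∪ I.erase x) w := by
    intro w hw
    rw [hWeq]
    exact hdeg w (Finset.mem_erase.1 hw).2
  have hqe' : Real.exp 1 * q ≤ 1 := by
    have h2 : Real.exp 1 * Real.exp (-1) = 1 := by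
      rw [← Real.exp_add]
      simp
    calc Real.exp 1 * q ≤ Real.exp 1 * Real.exp (-1) :=
          mul_le_mul_of_nonneg_left hqe (Real.exp_pos _).le
      _ = 1 := h2
  have hJW : I.erase x ⊆ insert x E ∪ I.erase x := Finset.subset_union_right
  have hP : Pin n q F H (insert x E ∪ I.erase x) (I.erase x) (S.filter (fun φ => φ x = y)) φ₁ := by
    refine ⟨hJW, hinj', hhom', ?_, ?_, hn', hq0, hqe'⟩
    · rw [union_sdiff_of_disj hJY]
      exact hag
    · intro J' h1 h2
      exact hlow J' h1 h2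
  have hdeg2 : ∀ u ∈ I.erase x, 2 ≤ (nbW F (insert x E ∪ I.erase x) u).card := by
    intro u hu
    have := hdeg' u hu
    rwa [dW_eq_nbW (hJW hu)] at this
  have hconn' : ∀ D : Finset α, (insert x E ∪ I.erase x) \ I.erase x ⊆ D →
      D ⊆ insert x E ∪ I.erase x → D ≠ insert x E ∪ I.erase x →
      ∃ u ∈ D, ∃ v ∈ (insert x E ∪ I.erase x) \ D, F.Adj u v := by
    intro D h1 h2 h3
    rw [union_sdiff_of_disj hJY] at h1
    have hxD : x ∈ D := h1 (Finset.mem_insert_self _ _)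
    have hED : E ⊆ D := fun a ha => h1 (Finset.mem_insert_of_mem ha)
    have hne : (D ∩ I).Nonempty := ⟨x, Finset.mem_inter.2 ⟨hxD, hx⟩⟩
    have hne2 : D ∩ I ≠ I := by
      intro h4
      apply h3
      apply Finset.Subset.antisymm h2
      rw [hWeq]
      intro a ha
      rcases Finset.mem_union.1 ha with h5 | h5
      · exact hED h5
      · rw [← h4] at h5
        exact (Finset.mem_inter.1 h5).1
    obtain ⟨u, hu, v, hv, huv⟩ := hconn (D ∩ I) hne Finset.inter_subset_right hne2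
    refine ⟨u, (Finset.mem_inter.1 hu).1, v, ?_, huv⟩
    obtain ⟨hv1, hv2⟩ := Finset.mem_sdiff.1 hv
    rw [hWeq]
    refine Finset.mem_sdiff.2 ⟨Finset.mem_union_right _ hv1, fun hvD => hv2 ?_⟩
    exact Finset.mem_inter.2 ⟨hvD, hv1⟩
  have hLam0 : 0 ≤ spLam n q := spLam_nonneg hD hL
  have hD02 : 2 ≤ spD0 n q := by
    unfold spD0
    omega
  have hLam : (1 + 2 * (1 + Real.log ((n : ℝ) * q))) * spLam n q ≤ (spD0 n q : ℝ) - 2 := by
    unfold spD0
    push_cast
    have := Nat.le_ceil ((1 + 2 * (1 + Real.log ((n : ℝ) * q))) * spLam n q)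
    linarith
  have hΔ : ∀ z, ((nb (UU F (insert x E ∪ I.erase x) (I.erase x)
      (S.filter (fun φ => φ x = y))) z).card : ℝ) ≤ Real.exp (spLam n q) := by
    intro z
    rw [← pinU_eq_UU hJY]
    have hU : ∀ e ∈ pinU F (insert x E) (I.erase x) (S.filter (fun φ => φ x = y)),
        e ∈ H.edgeSet := by
      intro e he
      obtain ⟨φ, hφ, he'⟩ := Finset.mem_biUnion.1 he
      obtain ⟨e', he'', rfl⟩ := Finset.mem_image.1 he'
      induction e' using Sym2.ind with
      | _ u v =>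
        have h1 := (newE_spec he'').1
        exact (SimpleGraph.mem_edgeSet H).2 (hhom' φ hφ u v h1)
    have h1 := udeg_le_degree _ hU z
    have h2 := degree_bound hG hq0 hq1 hn' hV hD z
    have h3 := degree_le_exp_lam hD hL
    have h4 : ((udeg (pinU F (insert x E) (I.erase x) (S.filter (fun φ => φ x = y))) z : ℕ) : ℝ) ≤
        (((univ : Finset V).filter (fun b => H.Adj z b)).card : ℝ) := by exact_mod_cast h1
    have h5 : (nb (pinU F (insert x E) (I.erase x) (S.filter (fun φ => φ x = y))) z).card =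
        udeg (pinU F (insert x E) (I.erase x) (S.filter (fun φ => φ x = y))) z := rfl
    rw [h5]
    linarith
  -- the excess
  have hsum := sum_nbW_le (F := F) (W := insert x E ∪ I.erase x) hJW
  have h2J : 2 * (I.erase x).card ≤ ∑ z ∈ I.erase x, (nbW F (insert x E ∪ I.erase x) z).card := by
    calc 2 * (I.erase x).card = ∑ _z ∈ I.erase x, 2 := by simp [mul_comm]
      _ ≤ _ := Finset.sum_le_sum hdeg2
  have hJt : (I.erase x).card ≤ (tI F (insert x E ∪ I.erase x) (I.erase x)).card := by omega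
  obtain ⟨X, hX⟩ : ∃ X, (tI F (insert x E ∪ I.erase x) (I.erase x)).card = (I.erase x).card + X :=
    ⟨_, (Nat.add_sub_cancel' hJt).symm⟩
  have hIc : I.card = (I.erase x).card + 1 := by
    rw [Finset.card_erase_of_mem hx]
    have : 0 < I.card := Finset.card_pos.2 ⟨x, hx⟩
    omega
  have hXle : X ≤ xI + 1 := by
    have h1 : tI F (insert x E ∪ I.erase x) (I.erase x) = newE F (insert x E) (I.erase x) := by
      unfold tI
      rw [union_sdiff_of_disj hJY]
    have h2 : (newE F (insert x E) (I.erase x)).card ≤ (newE F E I).card :=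
      Finset.card_le_card (newE_erase_subset' hx)
    rw [h1] at hX
    omega
  have hr : (roots F (insert x E ∪ I.erase x) (I.erase x) φ₁).card ≤ (core F E I).card + 1 := by
    have h1 : roots F (insert x E ∪ I.erase x) (I.erase x) φ₁ =
        pinR F (insert x E) (I.erase x) φ₁ := by
      unfold pinR roots
      rw [union_sdiff_of_disj hJY]
    rw [h1]
    exact pinR_card_le (F := F) (φ₀ := φ₁) hx hdisj
  have hmain := pinned_v hP hG hq1 hD hQ hdeg2 hconn' hD02 hLam0 hLam hΔ hX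
  have hg := spG_nonneg hD
  have hfinal := pinned_num (r := (roots F (insert x E ∪ I.erase x) (I.erase x) φ₁).card)
    (b := (core F E I).card) (X := X) (x := xI) (L := Real.log n) (G := 1 + spG n q)
    (t := Real.log (Real.log n + 2)) (B := (spD0 n q : ℝ) * (Real.log n + 1)) hL (by linarith) hr
    hXle (Real.log_nonneg (by linarith)) (by positivity) (spD0_bound hD hq1 hn')
  rw [← hWeq]
  exact hmain.trans hfinal

end Vale.Agent.Lib.P064V
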